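import Vale.Agent.Lib.P154.Ineq3.Fun

/-! Elementary properties of the functionals `P3, Z3, K3, H3` and the channel inequalities. -/

namespace Vale.Agent.Lib.P154.Ineq3

open scoped BigOperators

/-! ### Polynomial facts -/

private theorem q_pos (r L : ℝ) (hr0 : 0 ≤ r) (hr1 : r ≤ 1) (hL0 : 0 ≤ L) (hL1 : L ≤ 1) :
    0 ≤ 2 + 7*L + 9*L^2 + 5*L^3 + L^4 + r + (-1)*r*L + (-6)*r*L^2 + (-2)*r*L^3 + 2*r*L^4
      + (-3)*r^2*L + (-3)*r^2*L^2 + 3*r^2*L^3 + 3*r^2*L^4 + 3*r^3*L^2 + r^3*L^3 + (-4)*r^3*L^4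
      + (-1)*r^4*L^3 + r^4*L^4 := by
  obtain ⟨s, hs⟩ : ∃ s, s = 1 - r := ⟨_, rfl⟩
  obtain ⟨t, ht⟩ : ∃ t, t = 1 - L := ⟨_, rfl⟩
  have hs0 : 0 ≤ s := by linarith
  have ht0 : 0 ≤ t := by linarith
  have e : 2 + 7*L + 9*L^2 + 5*L^3 + L^4 + r + (-1)*r*L + (-6)*r*L^2 + (-2)*r*L^3 + 2*r*L^4
      + (-3)*r^2*L + (-3)*r^2*L^2 + 3*r^2*L^3 + 3*r^2*L^4 + 3*r^3*L^2 + r^3*L^3 + (-4)*r^3*L^4
      + (-1)*r^4*L^3 + r^4*L^4
      = 2*(r^0*s^4*(L^0*t^4)) + 15*(r^0*s^4*(L^1*t^3)) + 42*(r^0*s^4*(L^2*t^2)) + 52*(r^0*s^4*(L^3*t^1)) + 24*(r^0*s^4*(L^4*t^0)) + 9*(r^1*s^3*(L^0*t^4)) + 63*(r^1*s^3*(L^1*t^3)) + 165*(r^1*s^3*(L^2*t^2)) + 195*(r^1*s^3*(L^3*t^1)) + 90*(r^1*s^3*(L^4*t^0)) + 15*(r^2*s^2*(L^0*t^4)) + 96*(r^2*s^2*(L^1*t^3)) + 231*(r^2*s^2*(L^2*t^2)) + 261*(r^2*s^2*(L^3*t^1)) + 126*(r^2*s^2*(L^4*t^0)) + 11*(r^3*s^1*(L^0*t^4)) + 63*(r^3*s^1*(L^1*t^3)) + 138*(r^3*s^1*(L^2*t^2))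 + 152*(r^3*s^1*(L^3*t^1)) + 78*(r^3*s^1*(L^4*t^0)) + 3*(r^4*s^0*(L^0*t^4)) + 15*(r^4*s^0*(L^1*t^3)) + 30*(r^4*s^0*(L^2*t^2)) + 33*(r^4*s^0*(L^3*t^1)) + 18*(r^4*s^0*(L^4*t^0)) := by
    rw [hs, ht]; ring
  rw [e]
  positivity

private theorem base_ineq (r L : ℝ) (hr0 : 0 ≤ r) (hr1 : r ≤ 1) (hL0 : 0 ≤ L) (hL1 : L ≤ 1) :
    ((1 - r^2) + r^2*(1-r)*(2*L^2/(1+L)) + r^3*L)^3
      ≤ (1-r)^2*(1+2*r) + 3*r^2*(1-r)*(2*L^2/(1+L)) + r^3*L^3 := by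
  have hp : (0:ℝ) < 1 + L := by linarith
  have e : (1-r)^2*(1+2*r) + 3*r^2*(1-r)*(2*L^2/(1+L)) + r^3*L^3
      - ((1 - r^2) + r^2*(1-r)*(2*L^2/(1+L)) + r^3*L)^3
      = r^3*(1-r)^2*(1-L)^2*(2 + 7*L + 9*L^2 + 5*L^3 + L^4 + r + (-1)*r*L + (-6)*r*L^2
        + (-2)*r*L^3 + 2*r*L^4 + (-3)*r^2*L + (-3)*r^2*L^2 + 3*r^2*L^3 + 3*r^2*L^4 + 3*r^3*L^2
        + r^3*L^3 + (-4)*r^3*L^4 + (-1)*r^4*L^3 + r^4*L^4) / (1+L)^3 := by
    field_simp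
    ring
  have hq := q_pos r L hr0 hr1 hL0 hL1
  have : 0 ≤ r^3*(1-r)^2*(1-L)^2*(2 + 7*L + 9*L^2 + 5*L^3 + L^4 + r + (-1)*r*L + (-6)*r*L^2
        + (-2)*r*L^3 + 2*r*L^4 + (-3)*r^2*L + (-3)*r^2*L^2 + 3*r^2*L^3 + 3*r^2*L^4 + 3*r^3*L^2
        + r^3*L^3 + (-4)*r^3*L^4 + (-1)*r^4*L^3 + r^4*L^4) / (1+L)^3 := by
    apply div_nonneg _ (by positivity)
    apply mul_nonneg (by positivity) hq
  linarith

private theorem cube_aux (A B : ℝ) (hB0 : 0 ≤ B) (hAB : B ≤ A) (hA1 : A ≤ 1) :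
    A^3 - B^3 ≤ 3*(A - B) := by
  have hA0 : 0 ≤ A := le_trans hB0 hAB
  have hB1 : B ≤ 1 := le_trans hAB hA1
  have x1 : A^2 ≤ 1 := pow_le_one₀ hA0 hA1
  have x2 : B^2 ≤ 1 := pow_le_one₀ hB0 hB1
  have x3 : A*B ≤ 1 := mul_le_one₀ hA1 hB0 hB1
  have h := mul_le_mul_of_nonneg_left (show A^2 + A*B + B^2 ≤ 3 by linarith)
    (show 0 ≤ A - B by linarith)
  have e : A^3 - B^3 = (A - B) * (A^2 + A*B + B^2) := by ring
  rw [e]; linarith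

private theorem root_le (x y : ℝ) (hx : 0 ≤ x) (h : x^3 ≤ y) : x ≤ y ^ ((1:ℝ)/3) := by
  have h1 := Real.rpow_le_rpow (by positivity) h (by norm_num : (0:ℝ) ≤ 1/3)
  refine le_trans (le_of_eq ?_) h1
  rw [← Real.rpow_natCast, ← Real.rpow_mul hx]; norm_num

/-- the normalised cubic inequality behind `chanZ3` -/
theorem cube_ineq (r L eps : ℝ) (hr0 : 0 ≤ r) (hr1 : r ≤ 1) (hL0 : 0 ≤ L) (hL1 : L ≤ 1)
    (he0 : 0 ≤ eps) (he1 : eps ≤ 1) (heL : L^3 ≤ eps^2) :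
    ((1 - r^2) + r^2*(1-r)*eps + r^3*L)^3
      ≤ (1-r)^2*(1+2*r) + 3*r^2*(1-r)*eps + r^3*L^3 := by
  have hp : (0:ℝ) < 1 + L := by linarith
  set e0 : ℝ := 2*L^2/(1+L) with hdef
  have hb := base_ineq r L hr0 hr1 hL0 hL1
  rw [← hdef] at hb
  have h0 : 0 ≤ e0 := by rw [hdef]; positivity
  have h1 : e0 ≤ eps := by
    have h2 : e0^2 ≤ eps^2 := by
      refine le_trans ?_ heL
      rw [hdef, div_pow, div_le_iff₀ (by positivity)]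
      have : 0 ≤ L^3 * (1 - L)^2 := by positivity
      nlinarith [this]
    exact le_of_sq_le_sq h2 he0
  have hr2 : 0 ≤ r^2*(1-r) := mul_nonneg (by positivity) (by linarith)
  have hA1 : (1 - r^2) + r^2*(1-r)*eps + r^3*L ≤ 1 := by
    have a1 : r^2*(1-r)*eps ≤ r^2*(1-r)*1 := mul_le_mul_of_nonneg_left he1 hr2
    have a2 : r^3*L ≤ r^3*1 := mul_le_mul_of_nonneg_left hL1 (by positivity)
    have a3 : (1 - r^2) + r^2*(1-r)*1 + r^3*1 = 1 := by ring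
    linarith
  have hB0 : 0 ≤ (1 - r^2) + r^2*(1-r)*e0 + r^3*L := by
    have a0 : 0 ≤ 1 - r^2 := by nlinarith
    have a1 : 0 ≤ r^2*(1-r)*e0 := mul_nonneg hr2 h0
    have a2 : 0 ≤ r^3*L := by positivity
    linarith
  have hAB : (1 - r^2) + r^2*(1-r)*e0 + r^3*L ≤ (1 - r^2) + r^2*(1-r)*eps + r^3*L := by
    have := mul_le_mul_of_nonneg_left h1 hr2
    linarith
  set A : ℝ := (1 - r^2) + r^2*(1-r)*eps + r^3*L with hA
  set B : ℝ := (1 - r^2) + r^2*(1-r)*e0 + r^3*L with hB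
  have hd : r^2*(1-r)*(eps - e0) = A - B := by rw [hA, hB]; ring
  have h3 : A^3 - B^3 ≤ 3*(A - B) := cube_aux A B hB0 hAB hA1
  have : (1-r)^2*(1+2*r) + 3*r^2*(1-r)*eps + r^3*L^3
      = (1-r)^2*(1+2*r) + 3*r^2*(1-r)*e0 + r^3*L^3 + 3*(A - B) := by
    rw [← hd]; ring
  linarith

/-! ### Basic facts on `Fin 3` vectors -/

section basic

variable {W : Fin 3 → ℝ}

theorem mm_nonneg (hW : ∀ i, 0 ≤ W i) : 0 ≤ mm W := by
  have h0 := hW 0; have h1 := hW 1; have h2 := hW 2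
  unfold mm; positivity

theorem e2_nonneg (hW : ∀ i, 0 ≤ W i) : 0 ≤ e2 W := by
  have h0 := hW 0; have h1 := hW 1; have h2 := hW 2
  unfold e2; positivity

theorem e3_nonneg (hW : ∀ i, 0 ≤ W i) : 0 ≤ e3 W := by
  have h0 := hW 0; have h1 := hW 1; have h2 := hW 2
  unfold e3; positivity

theorem eq_zero_of_mm (hW : ∀ i, 0 ≤ W i) (hm : mm W = 0) : W = fun _ => 0 := by
  have h0 := hW 0; have h1 := hW 1; have h2 := hW 2
  unfold mm at hm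
  funext i
  fin_cases i <;> simp <;> linarith

theorem e2_le (_hW : ∀ i, 0 ≤ W i) : e2 W ≤ 3 * mm W ^ 2 := by
  unfold e2 mm
  nlinarith [sq_nonneg (W 0 - W 1), sq_nonneg (W 1 - W 2), sq_nonneg (W 2 - W 0)]

theorem e3_le_e2_mm (hW : ∀ i, 0 ≤ W i) : 3 * e3 W ≤ e2 W * mm W := by
  have h0 := hW 0; have h1 := hW 1; have h2 := hW 2
  unfold e2 mm e3
  nlinarith [mul_nonneg h0 (sq_nonneg (W 1 - W 2)), mul_nonneg h1 (sq_nonneg (W 2 - W 0)),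
    mul_nonneg h2 (sq_nonneg (W 0 - W 1))]

theorem e3_le_mm (hW : ∀ i, 0 ≤ W i) : e3 W ≤ mm W ^ 3 := by
  have h := e3_le_e2_mm hW
  have h' := e2_le hW
  have hm := mm_nonneg hW
  nlinarith [mul_le_mul_of_nonneg_right h' hm]

theorem e3_mm_le (_hW : ∀ i, 0 ≤ W i) : 9 * mm W * e3 W ≤ e2 W ^ 2 := by
  unfold e2 mm e3
  nlinarith [sq_nonneg (W 0 * W 1 - W 1 * W 2), sq_nonneg (W 1 * W 2 - W 2 * W 0),
    sq_nonneg (W 2 * W 0 - W 0 * W 1)]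

theorem mm_mul_P3 (hW : ∀ i, 0 ≤ W i) : mm W * P3 W = mm W ^ 2 - e2 W / 3 := by
  rcases (mm_nonneg hW).eq_or_lt with h | h
  · have hz := eq_zero_of_mm hW h.symm
    subst hz
    simp [mm, e2]
  · unfold P3
    field_simp

theorem P3_nonneg (hW : ∀ i, 0 ≤ W i) : 0 ≤ P3 W := by
  rcases (mm_nonneg hW).eq_or_lt with h | h
  · unfold P3; rw [← h]; simp
  · have h1 := mm_mul_P3 hW
    have h2 := e2_le hW
    have h3 : 0 ≤ mm W * P3 W := by rw [h1]; linarith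
    exact nonneg_of_mul_nonneg_right h3 h

theorem P3_le (hW : ∀ i, 0 ≤ W i) : P3 W ≤ mm W := by
  unfold P3
  have := div_nonneg (e2_nonneg hW) (mul_nonneg (by norm_num : (0:ℝ) ≤ 3) (mm_nonneg hW))
  linarith

theorem K3_nonneg (hW : ∀ i, 0 ≤ W i) : 0 ≤ K3 W := by
  unfold K3
  exact div_nonneg (e3_nonneg hW) (by positivity)

theorem H3_nonneg (hW : ∀ i, 0 ≤ W i) : 0 ≤ H3 W := by
  unfold H3
  apply div_nonneg _ (by norm_num)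
  apply mul_nonneg (P3_nonneg hW)
  rcases (mm_nonneg hW).eq_or_lt with h | h
  · rw [← h]; simp
  · have h1 := e3_le_e2_mm hW
    have h2 := e3_nonneg hW
    have : e2 W / mm W ^ 2 - e3 W / mm W ^ 3 = (e2 W * mm W - e3 W) / mm W ^ 3 := by
      field_simp
    rw [this]
    apply div_nonneg (by linarith) (by positivity)

theorem P3_one : P3 (fun _ => 1) = 0 := by
  simp [P3, mm, e2]; norm_num

theorem Z3_one : Z3 (fun _ => 1) = 0 := by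
  simp [Z3, mm, e2, e3]; norm_num

theorem leafZ3 (j : Fin 3) : 0 ≤ Z3 (fun i => if j = i then 1 else 0) := by
  fin_cases j <;> simp [Z3, mm, e2, e3]

theorem tv3 (hW : ∀ i, 0 ≤ W i) : (∑ i, |W i - mm W|) ^ 2 ≤ 18 * mm W * P3 W := by
  have h1 : (∑ i : Fin 3, |W i - mm W|) ^ 2 ≤ 3 * ∑ i : Fin 3, |W i - mm W| ^ 2 := by
    have := @sq_sum_le_card_mul_sum_sq (Fin 3) ℝ _ _ _ _ Finset.univ (fun i => |W i - mm W|)
    simpa using this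
  have h2 : 18 * mm W * P3 W = 18 * (mm W ^ 2 - e2 W / 3) := by
    rw [mul_assoc, mm_mul_P3 hW]
  rw [h2]
  refine h1.trans (le_of_eq ?_)
  simp only [sq_abs, Fin.sum_univ_three]
  unfold mm e2
  ring

end basic

/-! ### The channel -/

theorem chan_eq (lam : ℝ) (W : Fin 3 → ℝ) (i : Fin 3) :
    ∑ j, potts 3 lam i j * W j = lam * W i + (1 - lam) * mm W := by
  unfold mm
  fin_cases i <;> simp [potts, Fin.sum_univ_three] <;> ring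

theorem chan_fun (lam : ℝ) (W : Fin 3 → ℝ) :
    (fun i => ∑ j, potts 3 lam i j * W j) = fun i => lam * W i + (1 - lam) * mm W :=
  funext (chan_eq lam W)

theorem mm_chan (lam : ℝ) (W : Fin 3 → ℝ) :
    mm (fun i => lam * W i + (1 - lam) * mm W) = mm W := by
  simp only [mm]; ring

theorem e2_chan (lam : ℝ) (W : Fin 3 → ℝ) :
    e2 (fun i => lam * W i + (1 - lam) * mm W) = 3 * mm W ^ 2 * (1 - lam ^ 2) + lam ^ 2 * e2 W := by
  simp only [e2, mm]; ring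

theorem e3_chan (lam : ℝ) (W : Fin 3 → ℝ) :
    e3 (fun i => lam * W i + (1 - lam) * mm W)
      = (1 - lam) ^ 2 * (1 + 2 * lam) * mm W ^ 3 + (1 - lam) * lam ^ 2 * mm W * e2 W
        + lam ^ 3 * e3 W := by
  simp only [e2, mm, e3]; ring

theorem chan_nonneg {lam : ℝ} (h0 : 0 ≤ lam) (h1 : lam ≤ 1) {W : Fin 3 → ℝ}
    (hW : ∀ i, 0 ≤ W i) (i : Fin 3) : 0 ≤ lam * W i + (1 - lam) * mm W :=
  add_nonneg (mul_nonneg h0 (hW i)) (mul_nonneg (by linarith) (mm_nonneg hW))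

theorem chanP3 {lam : ℝ} (_h0 : 0 ≤ lam) (_h1 : lam ≤ 1) {W : Fin 3 → ℝ} (hW : ∀ i, 0 ≤ W i) :
    P3 (fun i => ∑ j, potts 3 lam i j * W j) ≤ lam ^ 2 * P3 W := by
  rw [chan_fun]
  unfold P3
  rw [mm_chan, e2_chan]
  rcases (mm_nonneg hW).eq_or_lt with h | h
  · rw [← h]; simp
  · apply le_of_eq
    field_simp
    ring

theorem chanZ3 {lam : ℝ} (h0 : 0 ≤ lam) (h1 : lam ≤ 1) {W : Fin 3 → ℝ} (hW : ∀ i, 0 ≤ W i) :
    lam ^ 3 * Z3 W ≤ Z3 (fun i => ∑ j, potts 3 lam i j * W j) := by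
  rw [chan_fun]
  rcases (mm_nonneg hW).eq_or_lt with h | h
  · have hz := eq_zero_of_mm hW h.symm
    subst hz
    simp [Z3, mm, e2, e3]
  have hc3 : e3 (fun i => lam * W i + (1 - lam) * mm W)
      = (1 - lam) ^ 2 * (1 + 2 * lam) * mm W ^ 3 + (1 - lam) * lam ^ 2 * mm W * e2 W
        + lam ^ 3 * e3 W := e3_chan lam W
  set m : ℝ := mm W with hm
  have hE3 := e3_nonneg hW
  have hE2 := e2_nonneg hW
  set c : ℝ := e3 W ^ ((1:ℝ)/3) with hc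
  have hc0 : 0 ≤ c := Real.rpow_nonneg hE3 _
  have hcc : c ^ 3 = e3 W := by
    rw [hc, ← Real.rpow_natCast, ← Real.rpow_mul hE3]; norm_num
  -- normalised quantities
  set L : ℝ := c / m with hL
  set eps : ℝ := e2 W / (3 * m ^ 2) with heps
  have hL0 : 0 ≤ L := div_nonneg hc0 h.le
  have hL3 : L ^ 3 = e3 W / m ^ 3 := by rw [hL, div_pow, hcc]
  have hL1 : L ≤ 1 := by
    have : L ^ 3 ≤ 1 := by
      rw [hL3, div_le_one (by positivity)]; exact e3_le_mm hW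
    by_contra hcon
    push Not at hcon
    have : (1:ℝ) ^ 3 < L ^ 3 := pow_lt_pow_left₀ hcon (by norm_num) (by norm_num)
    linarith
  have he0 : 0 ≤ eps := by rw [heps]; positivity
  have he1 : eps ≤ 1 := by
    rw [heps, div_le_one (by positivity)]; exact e2_le hW
  have heL : L ^ 3 ≤ eps ^ 2 := by
    rw [hL3, heps, div_pow, div_le_div_iff₀ (by positivity) (by positivity)]
    have := e3_mm_le hW
    rw [← hm] at this
    have h3 : 0 ≤ m ^ 3 := by positivity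
    nlinarith [mul_le_mul_of_nonneg_right this h3]
  have key := cube_ineq lam L eps h0 h1 hL0 hL1 he0 he1 heL
  -- scale back
  have hA : (m * ((1 - lam^2) + lam^2*(1-lam)*eps + lam^3*L)) ^ 3
      ≤ e3 (fun i => lam * W i + (1 - lam) * m) := by
    rw [hc3, mul_pow]
    have hm3 : 0 ≤ m ^ 3 := by positivity
    refine (mul_le_mul_of_nonneg_left key hm3).trans (le_of_eq ?_)
    rw [hL3, heps]
    field_simp
  have hA0 : 0 ≤ m * ((1 - lam^2) + lam^2*(1-lam)*eps + lam^3*L) := by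
    apply mul_nonneg h.le
    have a0 : 0 ≤ 1 - lam^2 := by nlinarith
    have a1 : 0 ≤ lam^2*(1-lam)*eps := mul_nonneg (mul_nonneg (by positivity) (by linarith)) he0
    have a2 : 0 ≤ lam^3*L := by positivity
    linarith
  have hroot : m * ((1 - lam^2) + lam^2*(1-lam)*eps + lam^3*L)
      ≤ e3 (fun i => lam * W i + (1 - lam) * m) ^ ((1:ℝ)/3) := root_le _ _ hA0 hA
  have hZ : Z3 (fun i => lam * W i + (1 - lam) * m)
      = 15 / 4 * m + 15 / 8 * (((1 - lam) ^ 2 * (1 + 2 * lam) * m ^ 3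
        + (1 - lam) * lam ^ 2 * m * e2 W + lam ^ 3 * e3 W) / m ^ 2)
        - 3 * ((3 * m ^ 2 * (1 - lam ^ 2) + lam ^ 2 * e2 W) / m)
        + 27 / 8 * e3 (fun i => lam * W i + (1 - lam) * m) ^ ((1 : ℝ) / 3) := by
    unfold Z3
    rw [hm, mm_chan, e2_chan, e3_chan]
  have hZW : Z3 W = 15 / 4 * m + 15 / 8 * (e3 W / m ^ 2) - 3 * (e2 W / m) + 27 / 8 * c := rfl
  rw [hZ, hZW]
  have hcL : c = m * L := by rw [hL]; field_simp
  have hee : e2 W / m = 3 * m * eps := by rw [heps]; field_simp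
  have e1 : ((1 - lam) ^ 2 * (1 + 2 * lam) * m ^ 3
        + (1 - lam) * lam ^ 2 * m * e2 W + lam ^ 3 * e3 W) / m ^ 2
      = (1 - lam) ^ 2 * (1 + 2 * lam) * m + 3 * (1 - lam) * lam ^ 2 * m * eps
        + lam ^ 3 * (e3 W / m ^ 2) := by
    rw [heps]; field_simp
  have e2' : (3 * m ^ 2 * (1 - lam ^ 2) + lam ^ 2 * e2 W) / m
      = 3 * m * (1 - lam ^ 2) + lam ^ 2 * (3 * m * eps) := by
    rw [heps]; field_simp
  rw [e1, e2', hee, hcL]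
  linear_combination (27/8) * hroot

end Vale.Agent.Lib.P154.Ineq3
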