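import Mathlib

namespace Vale.Agent.Lib.P154.Ineq3

abbrev V5 : Type := ℤ × ℤ × ℤ × ℤ × ℤ
abbrev V8 : Type := ℤ × ℤ × ℤ × ℤ × ℤ × ℤ × ℤ × ℤ
abbrev R5 : Type := ℝ × ℝ × ℝ × ℝ × ℝ
abbrev R8 : Type := ℝ × ℝ × ℝ × ℝ × ℝ × ℝ × ℝ × ℝ

/-- a real linear form evaluated at an integer vector -/
noncomputable def lin5 (a1 a2 a3 a4 a5 : ℝ) : V5 → ℝ
  | (g1, g2, g3, g4, g5) => a1 * g1 + a2 * g2 + a3 * g3 + a4 * g4 + a5 * g5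

noncomputable def lin8 (a1 a2 a3 a4 a5 a6 a7 a8 : ℝ) : V8 → ℝ
  | (g1, g2, g3, g4, g5, g6, g7, g8) =>
    a1 * g1 + a2 * g2 + a3 * g3 + a4 * g4 + a5 * g5 + a6 * g6 + a7 * g7 + a8 * g8

noncomputable def lin5R (a1 a2 a3 a4 a5 : ℝ) : R5 → ℝ
  | (g1, g2, g3, g4, g5) => a1 * (g1) + a2 * (g2) + a3 * (g3) + a4 * (g4) + a5 * (g5)

noncomputable def lin8R (a1 a2 a3 a4 a5 a6 a7 a8 : ℝ) : R8 → ℝ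
  | (g1, g2, g3, g4, g5, g6, g7, g8) =>
    a1 * g1 + a2 * g2 + a3 * g3 + a4 * g4 + a5 * g5 + a6 * g6 + a7 * g7 + a8 * g8

/-- `f` lies in the closed cone spanned by the integer vectors `C` (dual formulation) -/
def InCone5 (C : List V5) (f : R5) : Prop :=
  ∀ a1 a2 a3 a4 a5 : ℝ, (∀ g ∈ C, 0 ≤ lin5 a1 a2 a3 a4 a5 g) → 0 ≤ lin5R a1 a2 a3 a4 a5 f

def InCone8 (C : List V8) (f : R8) : Prop :=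
  ∀ a1 a2 a3 a4 a5 a6 a7 a8 : ℝ, (∀ g ∈ C, 0 ≤ lin8 a1 a2 a3 a4 a5 a6 a7 a8 g) →
    0 ≤ lin8R a1 a2 a3 a4 a5 a6 a7 a8 f

end Vale.Agent.Lib.P154.Ineq3
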