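import Vale.Agent.Lib.P154.Ineq3.Cone

set_option maxRecDepth 4000

namespace Vale.Agent.Lib.P154.Ineq3

def cA2 : List V8 :=
  [(61440, 3840, 240, -30720, -1920, -120, 960, 112000),
   (92160, 7680, 600, 15360, 0, -60, -1920, 129280),
   (122880, 14400, 1500, 61440, 6240, 450, 1680, 142240),
   (153600, 24000, 3750, 107520, 16800, 2625, 11760, 150880),
   (61440, 5376, 432, -36864, -3072, -240, 1728, 101760),
   (92160, 10752, 1080, 18432, 0, -120, -3456, 109824),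
   (122880, 20160, 2700, 73728, 9984, 900, 3024, 113568),
   (153600, 33600, 6750, 129024, 26880, 5250, 21168, 112992),
   (61440, 7296, 768, -43008, -4800, -480, 3072, 86528),
   (92160, 14592, 1920, 21504, 0, -240, -6144, 86528),
   (122880, 27360, 4800, 86016, 15600, 1800, 5376, 83072),
   (153600, 45600, 12000, 150528, 42000, 10500, 37632, 76160),
   (61440, 9600, 1344, -49152, -7296, -960, 5376, 65280),
   (92160, 19200, 3360, 24576, 0, -480, -10752, 59904),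
   (122880, 36000, 8400, 98304, 23712, 3600, 9408, 52800),
   (153600, 60000, 21000, 172032, 63840, 21000, 65856, 43968),
   (61440, 12288, 2304, -55296, -10752, -1920, 9216, 36864),
   (92160, 24576, 5760, 27648, 0, -960, -18432, 30720),
   (122880, 46080, 14400, 110592, 34944, 7200, 16128, 24576),
   (153600, 76800, 36000, 193536, 94080, 42000, 112896, 18432),
   (61440, 15360, 3840, -61440, -15360, -3840, 15360, 0),
   (92160, 30720, 9600, 30720, 0, -1920, -30720, 0),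
   (122880, 57600, 24000, 122880, 49920, 14400, 26880, 0),
   (153600, 96000, 60000, 215040, 134400, 84000, 188160, 0)]

theorem conecA2 (r q : ℝ) (hr0 : 1/2 ≤ r) (hr1 : r ≤ 1) (hq0 : 1/4 ≤ q)
    (hq1 : q ≤ 5/8) : InCone8 cA2 (q, r^2*q^2, r^4*q^3, r*(3*q-1), r^3*q*(3*q-1), r^5*q^2*(3*q-1), r^4*(3*q-1)^2, 2/3*(3*q*(1-r)+r)*(1-r^2*(3*q*(1-r)+r))) := by
  intro a1 a2 a3 a4 a5 a6 a7 a8 h
  have hX : 0 ≤ (r - 1/2) / (1/2) := div_nonneg (by linarith) (by norm_num)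
  have hY : 0 ≤ (1 - r) / (1/2) := div_nonneg (by linarith) (by norm_num)
  have hT : 0 ≤ (q - 1/4) / (3/8) := div_nonneg (by linarith) (by norm_num)
  have hU : 0 ≤ (5/8 - q) / (3/8) := div_nonneg (by linarith) (by norm_num)
  simp only [cA2, List.forall_mem_cons, List.not_mem_nil, IsEmpty.forall_iff, implies_true, and_true, lin8] at h
  obtain ⟨h0, h1, h2, h3, h4, h5, h6, h7, h8, h9, h10, h11, h12, h13, h14, h15, h16, h17, h18, h19, h20, h21, h22, h23⟩ := h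
  replace h0 := mul_nonneg (mul_nonneg (mul_nonneg (pow_nonneg hX 0) (pow_nonneg hY 5)) (mul_nonneg (pow_nonneg hT 0) (pow_nonneg hU 3))) h0
  replace h1 := mul_nonneg (mul_nonneg (mul_nonneg (pow_nonneg hX 0) (pow_nonneg hY 5)) (mul_nonneg (pow_nonneg hT 1) (pow_nonneg hU 2))) h1
  replace h2 := mul_nonneg (mul_nonneg (mul_nonneg (pow_nonneg hX 0) (pow_nonneg hY 5)) (mul_nonneg (pow_nonneg hT 2) (pow_nonneg hU 1))) h2
  replace h3 := mul_nonneg (mul_nonneg (mul_nonneg (pow_nonneg hX 0) (pow_nonneg hY 5)) (mul_nonneg (pow_nonneg hT 3) (pow_nonneg hU 0))) h3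
  replace h4 := mul_nonneg (mul_nonneg (mul_nonneg (pow_nonneg hX 1) (pow_nonneg hY 4)) (mul_nonneg (pow_nonneg hT 0) (pow_nonneg hU 3))) h4
  replace h5 := mul_nonneg (mul_nonneg (mul_nonneg (pow_nonneg hX 1) (pow_nonneg hY 4)) (mul_nonneg (pow_nonneg hT 1) (pow_nonneg hU 2))) h5
  replace h6 := mul_nonneg (mul_nonneg (mul_nonneg (pow_nonneg hX 1) (pow_nonneg hY 4)) (mul_nonneg (pow_nonneg hT 2) (pow_nonneg hU 1))) h6
  replace h7 := mul_nonneg (mul_nonneg (mul_nonneg (pow_nonneg hX 1) (pow_nonneg hY 4)) (mul_nonneg (pow_nonneg hT 3) (pow_nonneg hU 0))) h7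
  replace h8 := mul_nonneg (mul_nonneg (mul_nonneg (pow_nonneg hX 2) (pow_nonneg hY 3)) (mul_nonneg (pow_nonneg hT 0) (pow_nonneg hU 3))) h8
  replace h9 := mul_nonneg (mul_nonneg (mul_nonneg (pow_nonneg hX 2) (pow_nonneg hY 3)) (mul_nonneg (pow_nonneg hT 1) (pow_nonneg hU 2))) h9
  replace h10 := mul_nonneg (mul_nonneg (mul_nonneg (pow_nonneg hX 2) (pow_nonneg hY 3)) (mul_nonneg (pow_nonneg hT 2) (pow_nonneg hU 1))) h10
  replace h11 := mul_nonneg (mul_nonneg (mul_nonneg (pow_nonneg hX 2) (pow_nonneg hY 3)) (mul_nonneg (pow_nonneg hT 3) (pow_nonneg hU 0))) h11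
  replace h12 := mul_nonneg (mul_nonneg (mul_nonneg (pow_nonneg hX 3) (pow_nonneg hY 2)) (mul_nonneg (pow_nonneg hT 0) (pow_nonneg hU 3))) h12
  replace h13 := mul_nonneg (mul_nonneg (mul_nonneg (pow_nonneg hX 3) (pow_nonneg hY 2)) (mul_nonneg (pow_nonneg hT 1) (pow_nonneg hU 2))) h13
  replace h14 := mul_nonneg (mul_nonneg (mul_nonneg (pow_nonneg hX 3) (pow_nonneg hY 2)) (mul_nonneg (pow_nonneg hT 2) (pow_nonneg hU 1))) h14
  replace h15 := mul_nonneg (mul_nonneg (mul_nonneg (pow_nonneg hX 3) (pow_nonneg hY 2)) (mul_nonneg (pow_nonneg hT 3) (pow_nonneg hU 0))) h15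
  replace h16 := mul_nonneg (mul_nonneg (mul_nonneg (pow_nonneg hX 4) (pow_nonneg hY 1)) (mul_nonneg (pow_nonneg hT 0) (pow_nonneg hU 3))) h16
  replace h17 := mul_nonneg (mul_nonneg (mul_nonneg (pow_nonneg hX 4) (pow_nonneg hY 1)) (mul_nonneg (pow_nonneg hT 1) (pow_nonneg hU 2))) h17
  replace h18 := mul_nonneg (mul_nonneg (mul_nonneg (pow_nonneg hX 4) (pow_nonneg hY 1)) (mul_nonneg (pow_nonneg hT 2) (pow_nonneg hU 1))) h18
  replace h19 := mul_nonneg (mul_nonneg (mul_nonneg (pow_nonneg hX 4) (pow_nonneg hY 1)) (mul_nonneg (pow_nonneg hT 3) (pow_nonneg hU 0))) h19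
  replace h20 := mul_nonneg (mul_nonneg (mul_nonneg (pow_nonneg hX 5) (pow_nonneg hY 0)) (mul_nonneg (pow_nonneg hT 0) (pow_nonneg hU 3))) h20
  replace h21 := mul_nonneg (mul_nonneg (mul_nonneg (pow_nonneg hX 5) (pow_nonneg hY 0)) (mul_nonneg (pow_nonneg hT 1) (pow_nonneg hU 2))) h21
  replace h22 := mul_nonneg (mul_nonneg (mul_nonneg (pow_nonneg hX 5) (pow_nonneg hY 0)) (mul_nonneg (pow_nonneg hT 2) (pow_nonneg hU 1))) h22
  replace h23 := mul_nonneg (mul_nonneg (mul_nonneg (pow_nonneg hX 5) (pow_nonneg hY 0)) (mul_nonneg (pow_nonneg hT 3) (pow_nonneg hU 0))) h23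
  simp only [lin8R]
  have hD : (0:ℝ) < 245760 := by norm_num
  have key : 0 ≤ 245760 * (a1 * (q) + a2 * (r^2*q^2) + a3 * (r^4*q^3) + a4 * (r*(3*q-1)) + a5 * (r^3*q*(3*q-1)) + a6 * (r^5*q^2*(3*q-1)) + a7 * (r^4*(3*q-1)^2) + a8 * (2/3*(3*q*(1-r)+r)*(1-r^2*(3*q*(1-r)+r)))) := by
    push_cast at *
    linear_combination (exp := 1) 1 * h0 + 3 * h1 + 3 * h2 + 1 * h3 + 5 * h4 + 15 * h5 + 15 * h6 + 5 * h7 + 10 * h8 + 30 * h9 + 30 * h10 + 10 * h11 + 10 * h12 + 30 * h13 + 30 * h14 + 10 * h15 + 5 * h16 + 15 * h17 + 15 * h18 + 5 * h19 + 1 * h20 + 3 * h21 + 3 * h22 + 1 * h23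
  exact nonneg_of_mul_nonneg_right key hD

end Vale.Agent.Lib.P154.Ineq3
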