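import Vale.Agent.Lib.P154.Ineq3.Cone

set_option maxRecDepth 4000

namespace Vale.Agent.Lib.P154.Ineq3

def cA3 : List V8 :=
  [(153600, 24000, 3750, 107520, 16800, 2625, 11760, 150880),
   (184320, 33600, 6000, 153600, 27360, 4800, 21840, 159520),
   (215040, 46080, 9600, 199680, 42240, 8640, 38400, 163840),
   (245760, 61440, 15360, 245760, 61440, 15360, 61440, 163840),
   (153600, 33600, 6750, 129024, 26880, 5250, 21168, 112992),
   (184320, 47040, 10800, 184320, 43776, 9600, 39312, 112416),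
   (215040, 64512, 17280, 239616, 67584, 17280, 69120, 107520),
   (245760, 86016, 27648, 294912, 98304, 30720, 110592, 98304),
   (153600, 45600, 12000, 150528, 42000, 10500, 37632, 76160),
   (184320, 63840, 19200, 215040, 68400, 19200, 69888, 69248),
   (215040, 87552, 30720, 279552, 105600, 34560, 122880, 58880),
   (245760, 116736, 49152, 344064, 153600, 61440, 196608, 45056),
   (153600, 60000, 21000, 172032, 63840, 21000, 65856, 43968),
   (184320, 84000, 33600, 245760, 103968, 38400, 122304, 35136),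
   (215040, 115200, 53760, 319488, 160512, 69120, 215040, 24576),
   (245760, 153600, 86016, 393216, 233472, 122880, 344064, 12288),
   (153600, 76800, 36000, 193536, 94080, 42000, 112896, 18432),
   (184320, 107520, 57600, 276480, 153216, 76800, 209664, 12288),
   (215040, 147456, 92160, 359424, 236544, 138240, 368640, 6144),
   (245760, 196608, 147456, 442368, 344064, 245760, 589824, 0),
   (153600, 96000, 60000, 215040, 134400, 84000, 188160, 0),
   (184320, 134400, 96000, 307200, 218880, 153600, 349440, 0),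
   (215040, 184320, 153600, 399360, 337920, 276480, 614400, 0),
   (245760, 245760, 245760, 491520, 491520, 491520, 983040, 0)]

theorem conecA3 (r q : ℝ) (hr0 : 1/2 ≤ r) (hr1 : r ≤ 1) (hq0 : 5/8 ≤ q)
    (hq1 : q ≤ 1) : InCone8 cA3 (q, r^2*q^2, r^4*q^3, r*(3*q-1), r^3*q*(3*q-1), r^5*q^2*(3*q-1), r^4*(3*q-1)^2, 2/3*(3*q*(1-r)+r)*(1-r^2*(3*q*(1-r)+r))) := by
  intro a1 a2 a3 a4 a5 a6 a7 a8 h
  have hX : 0 ≤ (r - 1/2) / (1/2) := div_nonneg (by linarith) (by norm_num)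
  have hY : 0 ≤ (1 - r) / (1/2) := div_nonneg (by linarith) (by norm_num)
  have hT : 0 ≤ (q - 5/8) / (3/8) := div_nonneg (by linarith) (by norm_num)
  have hU : 0 ≤ (1 - q) / (3/8) := div_nonneg (by linarith) (by norm_num)
  simp only [cA3, List.forall_mem_cons, List.not_mem_nil, IsEmpty.forall_iff, implies_true, and_true, lin8] at h
  obtain ⟨h0, h1, h2, h3, h4, h5, h6, h7, h8, h9, h10, h11, h12, h13, h14, h15, h16, h17, h18, h19, h20, h21, h22, h23⟩ := h
  replace h0 := mul_nonneg (mul_nonneg (mul_nonneg (pow_nonneg hX 0) (pow_nonneg hY 5)) (mul_nonneg (pow_nonneg hT 0) (pow_nonneg hU 3))) h0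
  replace h1 := mul_nonneg (mul_nonneg (mul_nonneg (pow_nonneg hX 0) (pow_nonneg hY 5)) (mul_nonneg (pow_nonneg hT 1) (pow_nonneg hU 2))) h1
  replace h2 := mul_nonneg (mul_nonneg (mul_nonneg (pow_nonneg hX 0) (pow_nonneg hY 5)) (mul_nonneg (pow_nonneg hT 2) (pow_nonneg hU 1))) h2
  replace h3 := mul_nonneg (mul_nonneg (mul_nonneg (pow_nonneg hX 0) (pow_nonneg hY 5)) (mul_nonneg (pow_nonneg hT 3) (pow_nonneg hU 0))) h3
  replace h4 := mul_nonneg (mul_nonneg (mul_nonneg (pow_nonneg hX 1) (pow_nonneg hY 4)) (mul_nonneg (pow_nonneg hT 0) (pow_nonneg hU 3))) h4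
  replace h5 := mul_nonneg (mul_nonneg (mul_nonneg (pow_nonneg hX 1) (pow_nonneg hY 4)) (mul_nonneg (pow_nonneg hT 1) (pow_nonneg hU 2))) h5
  replace h6 := mul_nonneg (mul_nonneg (mul_nonneg (pow_nonneg hX 1) (pow_nonneg hY 4)) (mul_nonneg (pow_nonneg hT 2) (pow_nonneg hU 1))) h6
  replace h7 := mul_nonneg (mul_nonneg (mul_nonneg (pow_nonneg hX 1) (pow_nonneg hY 4)) (mul_nonneg (pow_nonneg hT 3) (pow_nonneg hU 0))) h7
  replace h8 := mul_nonneg (mul_nonneg (mul_nonneg (pow_nonneg hX 2) (pow_nonneg hY 3)) (mul_nonneg (pow_nonneg hT 0) (pow_nonneg hU 3))) h8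
  replace h9 := mul_nonneg (mul_nonneg (mul_nonneg (pow_nonneg hX 2) (pow_nonneg hY 3)) (mul_nonneg (pow_nonneg hT 1) (pow_nonneg hU 2))) h9
  replace h10 := mul_nonneg (mul_nonneg (mul_nonneg (pow_nonneg hX 2) (pow_nonneg hY 3)) (mul_nonneg (pow_nonneg hT 2) (pow_nonneg hU 1))) h10
  replace h11 := mul_nonneg (mul_nonneg (mul_nonneg (pow_nonneg hX 2) (pow_nonneg hY 3)) (mul_nonneg (pow_nonneg hT 3) (pow_nonneg hU 0))) h11
  replace h12 := mul_nonneg (mul_nonneg (mul_nonneg (pow_nonneg hX 3) (pow_nonneg hY 2)) (mul_nonneg (pow_nonneg hT 0) (pow_nonneg hU 3))) h12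
  replace h13 := mul_nonneg (mul_nonneg (mul_nonneg (pow_nonneg hX 3) (pow_nonneg hY 2)) (mul_nonneg (pow_nonneg hT 1) (pow_nonneg hU 2))) h13
  replace h14 := mul_nonneg (mul_nonneg (mul_nonneg (pow_nonneg hX 3) (pow_nonneg hY 2)) (mul_nonneg (pow_nonneg hT 2) (pow_nonneg hU 1))) h14
  replace h15 := mul_nonneg (mul_nonneg (mul_nonneg (pow_nonneg hX 3) (pow_nonneg hY 2)) (mul_nonneg (pow_nonneg hT 3) (pow_nonneg hU 0))) h15
  replace h16 := mul_nonneg (mul_nonneg (mul_nonneg (pow_nonneg hX 4) (pow_nonneg hY 1)) (mul_nonneg (pow_nonneg hT 0) (pow_nonneg hU 3))) h16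
  replace h17 := mul_nonneg (mul_nonneg (mul_nonneg (pow_nonneg hX 4) (pow_nonneg hY 1)) (mul_nonneg (pow_nonneg hT 1) (pow_nonneg hU 2))) h17
  replace h18 := mul_nonneg (mul_nonneg (mul_nonneg (pow_nonneg hX 4) (pow_nonneg hY 1)) (mul_nonneg (pow_nonneg hT 2) (pow_nonneg hU 1))) h18
  replace h19 := mul_nonneg (mul_nonneg (mul_nonneg (pow_nonneg hX 4) (pow_nonneg hY 1)) (mul_nonneg (pow_nonneg hT 3) (pow_nonneg hU 0))) h19
  replace h20 := mul_nonneg (mul_nonneg (mul_nonneg (pow_nonneg hX 5) (pow_nonneg hY 0)) (mul_nonneg (pow_nonneg hT 0) (pow_nonneg hU 3))) h20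
  replace h21 := mul_nonneg (mul_nonneg (mul_nonneg (pow_nonneg hX 5) (pow_nonneg hY 0)) (mul_nonneg (pow_nonneg hT 1) (pow_nonneg hU 2))) h21
  replace h22 := mul_nonneg (mul_nonneg (mul_nonneg (pow_nonneg hX 5) (pow_nonneg hY 0)) (mul_nonneg (pow_nonneg hT 2) (pow_nonneg hU 1))) h22
  replace h23 := mul_nonneg (mul_nonneg (mul_nonneg (pow_nonneg hX 5) (pow_nonneg hY 0)) (mul_nonneg (pow_nonneg hT 3) (pow_nonneg hU 0))) h23
  simp only [lin8R]
  have hD : (0:ℝ) < 245760 := by norm_num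
  have key : 0 ≤ 245760 * (a1 * (q) + a2 * (r^2*q^2) + a3 * (r^4*q^3) + a4 * (r*(3*q-1)) + a5 * (r^3*q*(3*q-1)) + a6 * (r^5*q^2*(3*q-1)) + a7 * (r^4*(3*q-1)^2) + a8 * (2/3*(3*q*(1-r)+r)*(1-r^2*(3*q*(1-r)+r)))) := by
    push_cast at *
    linear_combination (exp := 1) 1 * h0 + 3 * h1 + 3 * h2 + 1 * h3 + 5 * h4 + 15 * h5 + 15 * h6 + 5 * h7 + 10 * h8 + 30 * h9 + 30 * h10 + 10 * h11 + 10 * h12 + 30 * h13 + 30 * h14 + 10 * h15 + 5 * h16 + 15 * h17 + 15 * h18 + 5 * h19 + 1 * h20 + 3 * h21 + 3 * h22 + 1 * h23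
  exact nonneg_of_mul_nonneg_right key hD

end Vale.Agent.Lib.P154.Ineq3
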