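import Vale.Agent.Lib.P154.Ineq3.Cone

set_option maxRecDepth 4000

namespace Vale.Agent.Lib.P154.Ineq3

def cB0 : List V5 :=
  [(1536, 0, 0, 0, 0),
   (2688, 0, 0, 0, 0),
   (3840, 0, 0, 0, 0),
   (1536, 0, -192, 0, 0),
   (2688, 0, 240, 0, 0),
   (3840, 0, 672, 0, 0),
   (1536, 16, -384, 0, 48),
   (2688, 40, 480, 0, 120),
   (3840, 100, 1344, 0, 300),
   (1536, 48, -576, -12, 168),
   (2688, 120, 720, 6, 348),
   (3840, 300, 2016, 105, 690),
   (1536, 96, -768, -48, 392),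
   (2688, 240, 960, 24, 644),
   (3840, 600, 2688, 420, 1058)]

theorem conecB0 (r q : ℝ) (hr0 : 0 ≤ r) (hr1 : r ≤ 1/2) (hq0 : 1/4 ≤ q)
    (hq1 : q ≤ 5/8) : InCone5 cB0 (q, r^2*q^2, r*(3*q-1), r^3*q*(3*q-1), r^2*(3*q*(1-r)+r)^2/3) := by
  intro a1 a2 a3 a4 a5 h
  have hX : 0 ≤ (r - 0) / (1/2) := div_nonneg (by linarith) (by norm_num)
  have hY : 0 ≤ (1/2 - r) / (1/2) := div_nonneg (by linarith) (by norm_num)
  have hT : 0 ≤ (q - 1/4) / (3/8) := div_nonneg (by linarith) (by norm_num)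
  have hU : 0 ≤ (5/8 - q) / (3/8) := div_nonneg (by linarith) (by norm_num)
  simp only [cB0, List.forall_mem_cons, List.not_mem_nil, IsEmpty.forall_iff, implies_true, and_true, lin5] at h
  obtain ⟨h0, h1, h2, h3, h4, h5, h6, h7, h8, h9, h10, h11, h12, h13, h14⟩ := h
  replace h0 := mul_nonneg (mul_nonneg (mul_nonneg (pow_nonneg hX 0) (pow_nonneg hY 4)) (mul_nonneg (pow_nonneg hT 0) (pow_nonneg hU 2))) h0
  replace h1 := mul_nonneg (mul_nonneg (mul_nonneg (pow_nonneg hX 0) (pow_nonneg hY 4)) (mul_nonneg (pow_nonneg hT 1) (pow_nonneg hU 1))) h1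
  replace h2 := mul_nonneg (mul_nonneg (mul_nonneg (pow_nonneg hX 0) (pow_nonneg hY 4)) (mul_nonneg (pow_nonneg hT 2) (pow_nonneg hU 0))) h2
  replace h3 := mul_nonneg (mul_nonneg (mul_nonneg (pow_nonneg hX 1) (pow_nonneg hY 3)) (mul_nonneg (pow_nonneg hT 0) (pow_nonneg hU 2))) h3
  replace h4 := mul_nonneg (mul_nonneg (mul_nonneg (pow_nonneg hX 1) (pow_nonneg hY 3)) (mul_nonneg (pow_nonneg hT 1) (pow_nonneg hU 1))) h4
  replace h5 := mul_nonneg (mul_nonneg (mul_nonneg (pow_nonneg hX 1) (pow_nonneg hY 3)) (mul_nonneg (pow_nonneg hT 2) (pow_nonneg hU 0))) h5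
  replace h6 := mul_nonneg (mul_nonneg (mul_nonneg (pow_nonneg hX 2) (pow_nonneg hY 2)) (mul_nonneg (pow_nonneg hT 0) (pow_nonneg hU 2))) h6
  replace h7 := mul_nonneg (mul_nonneg (mul_nonneg (pow_nonneg hX 2) (pow_nonneg hY 2)) (mul_nonneg (pow_nonneg hT 1) (pow_nonneg hU 1))) h7
  replace h8 := mul_nonneg (mul_nonneg (mul_nonneg (pow_nonneg hX 2) (pow_nonneg hY 2)) (mul_nonneg (pow_nonneg hT 2) (pow_nonneg hU 0))) h8
  replace h9 := mul_nonneg (mul_nonneg (mul_nonneg (pow_nonneg hX 3) (pow_nonneg hY 1)) (mul_nonneg (pow_nonneg hT 0) (pow_nonneg hU 2))) h9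
  replace h10 := mul_nonneg (mul_nonneg (mul_nonneg (pow_nonneg hX 3) (pow_nonneg hY 1)) (mul_nonneg (pow_nonneg hT 1) (pow_nonneg hU 1))) h10
  replace h11 := mul_nonneg (mul_nonneg (mul_nonneg (pow_nonneg hX 3) (pow_nonneg hY 1)) (mul_nonneg (pow_nonneg hT 2) (pow_nonneg hU 0))) h11
  replace h12 := mul_nonneg (mul_nonneg (mul_nonneg (pow_nonneg hX 4) (pow_nonneg hY 0)) (mul_nonneg (pow_nonneg hT 0) (pow_nonneg hU 2))) h12
  replace h13 := mul_nonneg (mul_nonneg (mul_nonneg (pow_nonneg hX 4) (pow_nonneg hY 0)) (mul_nonneg (pow_nonneg hT 1) (pow_nonneg hU 1))) h13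
  replace h14 := mul_nonneg (mul_nonneg (mul_nonneg (pow_nonneg hX 4) (pow_nonneg hY 0)) (mul_nonneg (pow_nonneg hT 2) (pow_nonneg hU 0))) h14
  simp only [lin5R]
  have hD : (0:ℝ) < 6144 := by norm_num
  have key : 0 ≤ 6144 * (a1 * (q) + a2 * (r^2*q^2) + a3 * (r*(3*q-1)) + a4 * (r^3*q*(3*q-1)) + a5 * (r^2*(3*q*(1-r)+r)^2/3)) := by
    push_cast at *
    linear_combination (exp := 1) 1 * h0 + 2 * h1 + 1 * h2 + 4 * h3 + 8 * h4 + 4 * h5 + 6 * h6 + 12 * h7 + 6 * h8 + 4 * h9 + 8 * h10 + 4 * h11 + 1 * h12 + 2 * h13 + 1 * h14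
  exact nonneg_of_mul_nonneg_right key hD

def cB1 : List V5 :=
  [(3840, 0, 0, 0, 0),
   (4992, 0, 0, 0, 0),
   (6144, 0, 0, 0, 0),
   (3840, 0, 672, 0, 0),
   (4992, 0, 1104, 0, 0),
   (6144, 0, 1536, 0, 0),
   (3840, 100, 1344, 0, 300),
   (4992, 160, 2208, 0, 480),
   (6144, 256, 3072, 0, 768),
   (3840, 300, 2016, 105, 690),
   (4992, 480, 3312, 204, 1032),
   (6144, 768, 4608, 384, 1536),
   (3840, 600, 2688, 420, 1058),
   (4992, 960, 4416, 816, 1472),
   (6144, 1536, 6144, 1536, 2048)]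

theorem conecB1 (r q : ℝ) (hr0 : 0 ≤ r) (hr1 : r ≤ 1/2) (hq0 : 5/8 ≤ q)
    (hq1 : q ≤ 1) : InCone5 cB1 (q, r^2*q^2, r*(3*q-1), r^3*q*(3*q-1), r^2*(3*q*(1-r)+r)^2/3) := by
  intro a1 a2 a3 a4 a5 h
  have hX : 0 ≤ (r - 0) / (1/2) := div_nonneg (by linarith) (by norm_num)
  have hY : 0 ≤ (1/2 - r) / (1/2) := div_nonneg (by linarith) (by norm_num)
  have hT : 0 ≤ (q - 5/8) / (3/8) := div_nonneg (by linarith) (by norm_num)
  have hU : 0 ≤ (1 - q) / (3/8) := div_nonneg (by linarith) (by norm_num)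
  simp only [cB1, List.forall_mem_cons, List.not_mem_nil, IsEmpty.forall_iff, implies_true, and_true, lin5] at h
  obtain ⟨h0, h1, h2, h3, h4, h5, h6, h7, h8, h9, h10, h11, h12, h13, h14⟩ := h
  replace h0 := mul_nonneg (mul_nonneg (mul_nonneg (pow_nonneg hX 0) (pow_nonneg hY 4)) (mul_nonneg (pow_nonneg hT 0) (pow_nonneg hU 2))) h0
  replace h1 := mul_nonneg (mul_nonneg (mul_nonneg (pow_nonneg hX 0) (pow_nonneg hY 4)) (mul_nonneg (pow_nonneg hT 1) (pow_nonneg hU 1))) h1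
  replace h2 := mul_nonneg (mul_nonneg (mul_nonneg (pow_nonneg hX 0) (pow_nonneg hY 4)) (mul_nonneg (pow_nonneg hT 2) (pow_nonneg hU 0))) h2
  replace h3 := mul_nonneg (mul_nonneg (mul_nonneg (pow_nonneg hX 1) (pow_nonneg hY 3)) (mul_nonneg (pow_nonneg hT 0) (pow_nonneg hU 2))) h3
  replace h4 := mul_nonneg (mul_nonneg (mul_nonneg (pow_nonneg hX 1) (pow_nonneg hY 3)) (mul_nonneg (pow_nonneg hT 1) (pow_nonneg hU 1))) h4
  replace h5 := mul_nonneg (mul_nonneg (mul_nonneg (pow_nonneg hX 1) (pow_nonneg hY 3)) (mul_nonneg (pow_nonneg hT 2) (pow_nonneg hU 0))) h5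
  replace h6 := mul_nonneg (mul_nonneg (mul_nonneg (pow_nonneg hX 2) (pow_nonneg hY 2)) (mul_nonneg (pow_nonneg hT 0) (pow_nonneg hU 2))) h6
  replace h7 := mul_nonneg (mul_nonneg (mul_nonneg (pow_nonneg hX 2) (pow_nonneg hY 2)) (mul_nonneg (pow_nonneg hT 1) (pow_nonneg hU 1))) h7
  replace h8 := mul_nonneg (mul_nonneg (mul_nonneg (pow_nonneg hX 2) (pow_nonneg hY 2)) (mul_nonneg (pow_nonneg hT 2) (pow_nonneg hU 0))) h8
  replace h9 := mul_nonneg (mul_nonneg (mul_nonneg (pow_nonneg hX 3) (pow_nonneg hY 1)) (mul_nonneg (pow_nonneg hT 0) (pow_nonneg hU 2))) h9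
  replace h10 := mul_nonneg (mul_nonneg (mul_nonneg (pow_nonneg hX 3) (pow_nonneg hY 1)) (mul_nonneg (pow_nonneg hT 1) (pow_nonneg hU 1))) h10
  replace h11 := mul_nonneg (mul_nonneg (mul_nonneg (pow_nonneg hX 3) (pow_nonneg hY 1)) (mul_nonneg (pow_nonneg hT 2) (pow_nonneg hU 0))) h11
  replace h12 := mul_nonneg (mul_nonneg (mul_nonneg (pow_nonneg hX 4) (pow_nonneg hY 0)) (mul_nonneg (pow_nonneg hT 0) (pow_nonneg hU 2))) h12
  replace h13 := mul_nonneg (mul_nonneg (mul_nonneg (pow_nonneg hX 4) (pow_nonneg hY 0)) (mul_nonneg (pow_nonneg hT 1) (pow_nonneg hU 1))) h13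
  replace h14 := mul_nonneg (mul_nonneg (mul_nonneg (pow_nonneg hX 4) (pow_nonneg hY 0)) (mul_nonneg (pow_nonneg hT 2) (pow_nonneg hU 0))) h14
  simp only [lin5R]
  have hD : (0:ℝ) < 6144 := by norm_num
  have key : 0 ≤ 6144 * (a1 * (q) + a2 * (r^2*q^2) + a3 * (r*(3*q-1)) + a4 * (r^3*q*(3*q-1)) + a5 * (r^2*(3*q*(1-r)+r)^2/3)) := by
    push_cast at *
    linear_combination (exp := 1) 1 * h0 + 2 * h1 + 1 * h2 + 4 * h3 + 8 * h4 + 4 * h5 + 6 * h6 + 12 * h7 + 6 * h8 + 4 * h9 + 8 * h10 + 4 * h11 + 1 * h12 + 2 * h13 + 1 * h14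
  exact nonneg_of_mul_nonneg_right key hD

def cB2 : List V5 :=
  [(17756160, 1109760, -8878080, -554880, -18432),
   (31073280, 2774400, 11097600, 277440, 7653888),
   (44390400, 6936000, 31073280, 4855200, 15326208),
   (17756160, 1387200, -9987840, -762960, 3062016),
   (31073280, 3468000, 12484800, 381480, 9775296),
   (44390400, 8670000, 34957440, 6675900, 16488576),
   (17756160, 1710880, -11097600, -1040400, 6584832),
   (31073280, 4277200, 13872000, 520200, 12339072),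
   (44390400, 10693000, 38841600, 9103500, 18093312),
   (17756160, 2080800, -12207360, -1404540, 10550016),
   (31073280, 5202000, 15259200, 702270, 15345216),
   (44390400, 13005000, 42725760, 12289725, 20140416),
   (17756160, 2496960, -13317120, -1872720, 14957568),
   (31073280, 6242400, 16646400, 936360, 18793728),
   (44390400, 15606000, 46609920, 16386300, 22629888)]

theorem conecB2 (r q : ℝ) (hr0 : 1/2 ≤ r) (hr1 : r ≤ 3/4) (hq0 : 1/4 ≤ q)
    (hq1 : q ≤ 5/8) : InCone5 cB2 (q, r^2*q^2, r*(3*q-1), r^3*q*(3*q-1), (-243/2890)*((13/16) - r^2)/(9/64) - (-111/289)*(3*q*(1-r)+r)) := by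
  intro a1 a2 a3 a4 a5 h
  have hX : 0 ≤ (r - 1/2) / (1/4) := div_nonneg (by linarith) (by norm_num)
  have hY : 0 ≤ (3/4 - r) / (1/4) := div_nonneg (by linarith) (by norm_num)
  have hT : 0 ≤ (q - 1/4) / (3/8) := div_nonneg (by linarith) (by norm_num)
  have hU : 0 ≤ (5/8 - q) / (3/8) := div_nonneg (by linarith) (by norm_num)
  simp only [cB2, List.forall_mem_cons, List.not_mem_nil, IsEmpty.forall_iff, implies_true, and_true, lin5] at h
  obtain ⟨h0, h1, h2, h3, h4, h5, h6, h7, h8, h9, h10, h11, h12, h13, h14⟩ := h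
  replace h0 := mul_nonneg (mul_nonneg (mul_nonneg (pow_nonneg hX 0) (pow_nonneg hY 4)) (mul_nonneg (pow_nonneg hT 0) (pow_nonneg hU 2))) h0
  replace h1 := mul_nonneg (mul_nonneg (mul_nonneg (pow_nonneg hX 0) (pow_nonneg hY 4)) (mul_nonneg (pow_nonneg hT 1) (pow_nonneg hU 1))) h1
  replace h2 := mul_nonneg (mul_nonneg (mul_nonneg (pow_nonneg hX 0) (pow_nonneg hY 4)) (mul_nonneg (pow_nonneg hT 2) (pow_nonneg hU 0))) h2
  replace h3 := mul_nonneg (mul_nonneg (mul_nonneg (pow_nonneg hX 1) (pow_nonneg hY 3)) (mul_nonneg (pow_nonneg hT 0) (pow_nonneg hU 2))) h3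
  replace h4 := mul_nonneg (mul_nonneg (mul_nonneg (pow_nonneg hX 1) (pow_nonneg hY 3)) (mul_nonneg (pow_nonneg hT 1) (pow_nonneg hU 1))) h4
  replace h5 := mul_nonneg (mul_nonneg (mul_nonneg (pow_nonneg hX 1) (pow_nonneg hY 3)) (mul_nonneg (pow_nonneg hT 2) (pow_nonneg hU 0))) h5
  replace h6 := mul_nonneg (mul_nonneg (mul_nonneg (pow_nonneg hX 2) (pow_nonneg hY 2)) (mul_nonneg (pow_nonneg hT 0) (pow_nonneg hU 2))) h6
  replace h7 := mul_nonneg (mul_nonneg (mul_nonneg (pow_nonneg hX 2) (pow_nonneg hY 2)) (mul_nonneg (pow_nonneg hT 1) (pow_nonneg hU 1))) h7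
  replace h8 := mul_nonneg (mul_nonneg (mul_nonneg (pow_nonneg hX 2) (pow_nonneg hY 2)) (mul_nonneg (pow_nonneg hT 2) (pow_nonneg hU 0))) h8
  replace h9 := mul_nonneg (mul_nonneg (mul_nonneg (pow_nonneg hX 3) (pow_nonneg hY 1)) (mul_nonneg (pow_nonneg hT 0) (pow_nonneg hU 2))) h9
  replace h10 := mul_nonneg (mul_nonneg (mul_nonneg (pow_nonneg hX 3) (pow_nonneg hY 1)) (mul_nonneg (pow_nonneg hT 1) (pow_nonneg hU 1))) h10
  replace h11 := mul_nonneg (mul_nonneg (mul_nonneg (pow_nonneg hX 3) (pow_nonneg hY 1)) (mul_nonneg (pow_nonneg hT 2) (pow_nonneg hU 0))) h11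
  replace h12 := mul_nonneg (mul_nonneg (mul_nonneg (pow_nonneg hX 4) (pow_nonneg hY 0)) (mul_nonneg (pow_nonneg hT 0) (pow_nonneg hU 2))) h12
  replace h13 := mul_nonneg (mul_nonneg (mul_nonneg (pow_nonneg hX 4) (pow_nonneg hY 0)) (mul_nonneg (pow_nonneg hT 1) (pow_nonneg hU 1))) h13
  replace h14 := mul_nonneg (mul_nonneg (mul_nonneg (pow_nonneg hX 4) (pow_nonneg hY 0)) (mul_nonneg (pow_nonneg hT 2) (pow_nonneg hU 0))) h14
  simp only [lin5R]
  have hD : (0:ℝ) < 71024640 := by norm_num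
  have key : 0 ≤ 71024640 * (a1 * (q) + a2 * (r^2*q^2) + a3 * (r*(3*q-1)) + a4 * (r^3*q*(3*q-1)) + a5 * ((-243/2890)*((13/16) - r^2)/(9/64) - (-111/289)*(3*q*(1-r)+r))) := by
    push_cast at *
    linear_combination (exp := 1) 1 * h0 + 2 * h1 + 1 * h2 + 4 * h3 + 8 * h4 + 4 * h5 + 6 * h6 + 12 * h7 + 6 * h8 + 4 * h9 + 8 * h10 + 4 * h11 + 1 * h12 + 2 * h13 + 1 * h14
  exact nonneg_of_mul_nonneg_right key hD

def cB3 : List V5 :=
  [(1180139520, 165957120, -885104640, -124467840, 906780672),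
   (2065244160, 414892800, 1106380800, 62233920, 1597704192),
   (2950348800, 1037232000, 3097866240, 1089093600, 2288627712),
   (1180139520, 179786880, -921984000, -140026320, 1171657728),
   (2065244160, 449467200, 1152480000, 70013160, 1776215808),
   (2950348800, 1123668000, 3226944000, 1225230300, 2380773888),
   (1180139520, 194384960, -958863360, -157313520, 1449117696),
   (2065244160, 485962400, 1198579200, 78656760, 1967310336),
   (2950348800, 1214906000, 3356021760, 1376493300, 2485502976),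
   (1180139520, 209751360, -995742720, -176473500, 1739160576),
   (2065244160, 524378400, 1244678400, 88236750, 2170987776),
   (2950348800, 1310946000, 3485099520, 1544143125, 2602814976),
   (1180139520, 225886080, -1032622080, -197650320, 2041786368),
   (2065244160, 564715200, 1290777600, 98825160, 2387248128),
   (2950348800, 1411788000, 3614177280, 1729440300, 2732709888)]

theorem conecB3 (r q : ℝ) (hr0 : 3/4 ≤ r) (hr1 : r ≤ 7/8) (hq0 : 1/4 ≤ q)
    (hq1 : q ≤ 5/8) : InCone5 cB3 (q, r^2*q^2, r*(3*q-1), r^3*q*(3*q-1), (-108/245)*((85/64) - r^2)/(441/1024) - (-51/49)*(3*q*(1-r)+r)) := by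
  intro a1 a2 a3 a4 a5 h
  have hX : 0 ≤ (r - 3/4) / (1/8) := div_nonneg (by linarith) (by norm_num)
  have hY : 0 ≤ (7/8 - r) / (1/8) := div_nonneg (by linarith) (by norm_num)
  have hT : 0 ≤ (q - 1/4) / (3/8) := div_nonneg (by linarith) (by norm_num)
  have hU : 0 ≤ (5/8 - q) / (3/8) := div_nonneg (by linarith) (by norm_num)
  simp only [cB3, List.forall_mem_cons, List.not_mem_nil, IsEmpty.forall_iff, implies_true, and_true, lin5] at h
  obtain ⟨h0, h1, h2, h3, h4, h5, h6, h7, h8, h9, h10, h11, h12, h13, h14⟩ := h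
  replace h0 := mul_nonneg (mul_nonneg (mul_nonneg (pow_nonneg hX 0) (pow_nonneg hY 4)) (mul_nonneg (pow_nonneg hT 0) (pow_nonneg hU 2))) h0
  replace h1 := mul_nonneg (mul_nonneg (mul_nonneg (pow_nonneg hX 0) (pow_nonneg hY 4)) (mul_nonneg (pow_nonneg hT 1) (pow_nonneg hU 1))) h1
  replace h2 := mul_nonneg (mul_nonneg (mul_nonneg (pow_nonneg hX 0) (pow_nonneg hY 4)) (mul_nonneg (pow_nonneg hT 2) (pow_nonneg hU 0))) h2
  replace h3 := mul_nonneg (mul_nonneg (mul_nonneg (pow_nonneg hX 1) (pow_nonneg hY 3)) (mul_nonneg (pow_nonneg hT 0) (pow_nonneg hU 2))) h3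
  replace h4 := mul_nonneg (mul_nonneg (mul_nonneg (pow_nonneg hX 1) (pow_nonneg hY 3)) (mul_nonneg (pow_nonneg hT 1) (pow_nonneg hU 1))) h4
  replace h5 := mul_nonneg (mul_nonneg (mul_nonneg (pow_nonneg hX 1) (pow_nonneg hY 3)) (mul_nonneg (pow_nonneg hT 2) (pow_nonneg hU 0))) h5
  replace h6 := mul_nonneg (mul_nonneg (mul_nonneg (pow_nonneg hX 2) (pow_nonneg hY 2)) (mul_nonneg (pow_nonneg hT 0) (pow_nonneg hU 2))) h6
  replace h7 := mul_nonneg (mul_nonneg (mul_nonneg (pow_nonneg hX 2) (pow_nonneg hY 2)) (mul_nonneg (pow_nonneg hT 1) (pow_nonneg hU 1))) h7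
  replace h8 := mul_nonneg (mul_nonneg (mul_nonneg (pow_nonneg hX 2) (pow_nonneg hY 2)) (mul_nonneg (pow_nonneg hT 2) (pow_nonneg hU 0))) h8
  replace h9 := mul_nonneg (mul_nonneg (mul_nonneg (pow_nonneg hX 3) (pow_nonneg hY 1)) (mul_nonneg (pow_nonneg hT 0) (pow_nonneg hU 2))) h9
  replace h10 := mul_nonneg (mul_nonneg (mul_nonneg (pow_nonneg hX 3) (pow_nonneg hY 1)) (mul_nonneg (pow_nonneg hT 1) (pow_nonneg hU 1))) h10
  replace h11 := mul_nonneg (mul_nonneg (mul_nonneg (pow_nonneg hX 3) (pow_nonneg hY 1)) (mul_nonneg (pow_nonneg hT 2) (pow_nonneg hU 0))) h11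
  replace h12 := mul_nonneg (mul_nonneg (mul_nonneg (pow_nonneg hX 4) (pow_nonneg hY 0)) (mul_nonneg (pow_nonneg hT 0) (pow_nonneg hU 2))) h12
  replace h13 := mul_nonneg (mul_nonneg (mul_nonneg (pow_nonneg hX 4) (pow_nonneg hY 0)) (mul_nonneg (pow_nonneg hT 1) (pow_nonneg hU 1))) h13
  replace h14 := mul_nonneg (mul_nonneg (mul_nonneg (pow_nonneg hX 4) (pow_nonneg hY 0)) (mul_nonneg (pow_nonneg hT 2) (pow_nonneg hU 0))) h14
  simp only [lin5R]
  have hD : (0:ℝ) < 4720558080 := by norm_num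
  have key : 0 ≤ 4720558080 * (a1 * (q) + a2 * (r^2*q^2) + a3 * (r*(3*q-1)) + a4 * (r^3*q*(3*q-1)) + a5 * ((-108/245)*((85/64) - r^2)/(441/1024) - (-51/49)*(3*q*(1-r)+r))) := by
    push_cast at *
    linear_combination (exp := 1) 1 * h0 + 2 * h1 + 1 * h2 + 4 * h3 + 8 * h4 + 4 * h5 + 6 * h6 + 12 * h7 + 6 * h8 + 4 * h9 + 8 * h10 + 4 * h11 + 1 * h12 + 2 * h13 + 1 * h14
  exact nonneg_of_mul_nonneg_right key hD

def cB4 : List V5 :=
  [(83263488000, 15937152000, -72855552000, -13945008000, 132422860800),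
   (145711104000, 39842880000, 91069440000, 6972504000, 186419404800),
   (208158720000, 99607200000, 254994432000, 122018820000, 240415948800),
   (83263488000, 16506336000, -74156544000, -14692062000, 154448031744),
   (145711104000, 41265840000, 92695680000, 7346031000, 201695007744),
   (208158720000, 103164600000, 259547904000, 128555542500, 248941983744),
   (83263488000, 17089072000, -75457536000, -15474690000, 176926187520),
   (145711104000, 42722680000, 94321920000, 7737345000, 217423595520),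
   (208158720000, 106806700000, 264101376000, 135403537500, 257921003520),
   (83263488000, 17685360000, -76758528000, -16294162500, 199857328128),
   (145711104000, 44213400000, 95948160000, 8147081250, 233605168128),
   (208158720000, 110533500000, 268654848000, 142573921875, 267353008128),
   (83263488000, 18295200000, -78059520000, -17151750000, 223241453568),
   (145711104000, 45738000000, 97574400000, 8575875000, 250239725568),
   (208158720000, 114345000000, 273208320000, 150077812500, 277237997568)]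

theorem conecB4 (r q : ℝ) (hr0 : 7/8 ≤ r) (hr1 : r ≤ 15/16) (hq0 : 1/4 ≤ q)
    (hq1 : q ≤ 5/8) : InCone5 cB4 (q, r^2*q^2, r*(3*q-1), r^3*q*(3*q-1), (-1701/1210)*((421/256) - r^2)/(11025/16384) - (-279/121)*(3*q*(1-r)+r)) := by
  intro a1 a2 a3 a4 a5 h
  have hX : 0 ≤ (r - 7/8) / (1/16) := div_nonneg (by linarith) (by norm_num)
  have hY : 0 ≤ (15/16 - r) / (1/16) := div_nonneg (by linarith) (by norm_num)
  have hT : 0 ≤ (q - 1/4) / (3/8) := div_nonneg (by linarith) (by norm_num)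
  have hU : 0 ≤ (5/8 - q) / (3/8) := div_nonneg (by linarith) (by norm_num)
  simp only [cB4, List.forall_mem_cons, List.not_mem_nil, IsEmpty.forall_iff, implies_true, and_true, lin5] at h
  obtain ⟨h0, h1, h2, h3, h4, h5, h6, h7, h8, h9, h10, h11, h12, h13, h14⟩ := h
  replace h0 := mul_nonneg (mul_nonneg (mul_nonneg (pow_nonneg hX 0) (pow_nonneg hY 4)) (mul_nonneg (pow_nonneg hT 0) (pow_nonneg hU 2))) h0
  replace h1 := mul_nonneg (mul_nonneg (mul_nonneg (pow_nonneg hX 0) (pow_nonneg hY 4)) (mul_nonneg (pow_nonneg hT 1) (pow_nonneg hU 1))) h1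
  replace h2 := mul_nonneg (mul_nonneg (mul_nonneg (pow_nonneg hX 0) (pow_nonneg hY 4)) (mul_nonneg (pow_nonneg hT 2) (pow_nonneg hU 0))) h2
  replace h3 := mul_nonneg (mul_nonneg (mul_nonneg (pow_nonneg hX 1) (pow_nonneg hY 3)) (mul_nonneg (pow_nonneg hT 0) (pow_nonneg hU 2))) h3
  replace h4 := mul_nonneg (mul_nonneg (mul_nonneg (pow_nonneg hX 1) (pow_nonneg hY 3)) (mul_nonneg (pow_nonneg hT 1) (pow_nonneg hU 1))) h4
  replace h5 := mul_nonneg (mul_nonneg (mul_nonneg (pow_nonneg hX 1) (pow_nonneg hY 3)) (mul_nonneg (pow_nonneg hT 2) (pow_nonneg hU 0))) h5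
  replace h6 := mul_nonneg (mul_nonneg (mul_nonneg (pow_nonneg hX 2) (pow_nonneg hY 2)) (mul_nonneg (pow_nonneg hT 0) (pow_nonneg hU 2))) h6
  replace h7 := mul_nonneg (mul_nonneg (mul_nonneg (pow_nonneg hX 2) (pow_nonneg hY 2)) (mul_nonneg (pow_nonneg hT 1) (pow_nonneg hU 1))) h7
  replace h8 := mul_nonneg (mul_nonneg (mul_nonneg (pow_nonneg hX 2) (pow_nonneg hY 2)) (mul_nonneg (pow_nonneg hT 2) (pow_nonneg hU 0))) h8
  replace h9 := mul_nonneg (mul_nonneg (mul_nonneg (pow_nonneg hX 3) (pow_nonneg hY 1)) (mul_nonneg (pow_nonneg hT 0) (pow_nonneg hU 2))) h9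
  replace h10 := mul_nonneg (mul_nonneg (mul_nonneg (pow_nonneg hX 3) (pow_nonneg hY 1)) (mul_nonneg (pow_nonneg hT 1) (pow_nonneg hU 1))) h10
  replace h11 := mul_nonneg (mul_nonneg (mul_nonneg (pow_nonneg hX 3) (pow_nonneg hY 1)) (mul_nonneg (pow_nonneg hT 2) (pow_nonneg hU 0))) h11
  replace h12 := mul_nonneg (mul_nonneg (mul_nonneg (pow_nonneg hX 4) (pow_nonneg hY 0)) (mul_nonneg (pow_nonneg hT 0) (pow_nonneg hU 2))) h12
  replace h13 := mul_nonneg (mul_nonneg (mul_nonneg (pow_nonneg hX 4) (pow_nonneg hY 0)) (mul_nonneg (pow_nonneg hT 1) (pow_nonneg hU 1))) h13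
  replace h14 := mul_nonneg (mul_nonneg (mul_nonneg (pow_nonneg hX 4) (pow_nonneg hY 0)) (mul_nonneg (pow_nonneg hT 2) (pow_nonneg hU 0))) h14
  simp only [lin5R]
  have hD : (0:ℝ) < 333053952000 := by norm_num
  have key : 0 ≤ 333053952000 * (a1 * (q) + a2 * (r^2*q^2) + a3 * (r*(3*q-1)) + a4 * (r^3*q*(3*q-1)) + a5 * ((-1701/1210)*((421/256) - r^2)/(11025/16384) - (-279/121)*(3*q*(1-r)+r))) := by
    push_cast at *
    linear_combination (exp := 1) 1 * h0 + 2 * h1 + 1 * h2 + 4 * h3 + 8 * h4 + 4 * h5 + 6 * h6 + 12 * h7 + 6 * h8 + 4 * h9 + 8 * h10 + 4 * h11 + 1 * h12 + 2 * h13 + 1 * h14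
  exact nonneg_of_mul_nonneg_right key hD

def cB5 : List V5 :=
  [(98304000, 21600000, -92160000, -20250000, 220188672),
   (172032000, 54000000, 115200000, 10125000, 292764672),
   (245760000, 135000000, 322560000, 177187500, 365340672),
   (98304000, 22320000, -93696000, -21262500, 281336832),
   (172032000, 55800000, 117120000, 10631250, 335768832),
   (245760000, 139500000, 327936000, 186046875, 390200832),
   (98304000, 23056000, -95232000, -22320000, 343664640),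
   (172032000, 57640000, 119040000, 11160000, 379952640),
   (245760000, 144100000, 333312000, 195300000, 416240640),
   (98304000, 23808000, -96768000, -23424000, 407172096),
   (172032000, 59520000, 120960000, 11712000, 425316096),
   (245760000, 148800000, 338688000, 204960000, 443460096),
   (98304000, 24576000, -98304000, -24576000, 471859200),
   (172032000, 61440000, 122880000, 12288000, 471859200),
   (245760000, 153600000, 344064000, 215040000, 471859200)]

theorem conecB5 (r q : ℝ) (hr0 : 15/16 ≤ r) (hr1 : r ≤ 1) (hq0 : 1/4 ≤ q)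
    (hq1 : q ≤ 5/8) : InCone5 cB5 (q, r^2*q^2, r*(3*q-1), r^3*q*(3*q-1), (-81/20)*((481/256) - r^2)/(225/256) - (-21/4)*(3*q*(1-r)+r)) := by
  intro a1 a2 a3 a4 a5 h
  have hX : 0 ≤ (r - 15/16) / (1/16) := div_nonneg (by linarith) (by norm_num)
  have hY : 0 ≤ (1 - r) / (1/16) := div_nonneg (by linarith) (by norm_num)
  have hT : 0 ≤ (q - 1/4) / (3/8) := div_nonneg (by linarith) (by norm_num)
  have hU : 0 ≤ (5/8 - q) / (3/8) := div_nonneg (by linarith) (by norm_num)
  simp only [cB5, List.forall_mem_cons, List.not_mem_nil, IsEmpty.forall_iff, implies_true, and_true, lin5] at h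
  obtain ⟨h0, h1, h2, h3, h4, h5, h6, h7, h8, h9, h10, h11, h12, h13, h14⟩ := h
  replace h0 := mul_nonneg (mul_nonneg (mul_nonneg (pow_nonneg hX 0) (pow_nonneg hY 4)) (mul_nonneg (pow_nonneg hT 0) (pow_nonneg hU 2))) h0
  replace h1 := mul_nonneg (mul_nonneg (mul_nonneg (pow_nonneg hX 0) (pow_nonneg hY 4)) (mul_nonneg (pow_nonneg hT 1) (pow_nonneg hU 1))) h1
  replace h2 := mul_nonneg (mul_nonneg (mul_nonneg (pow_nonneg hX 0) (pow_nonneg hY 4)) (mul_nonneg (pow_nonneg hT 2) (pow_nonneg hU 0))) h2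
  replace h3 := mul_nonneg (mul_nonneg (mul_nonneg (pow_nonneg hX 1) (pow_nonneg hY 3)) (mul_nonneg (pow_nonneg hT 0) (pow_nonneg hU 2))) h3
  replace h4 := mul_nonneg (mul_nonneg (mul_nonneg (pow_nonneg hX 1) (pow_nonneg hY 3)) (mul_nonneg (pow_nonneg hT 1) (pow_nonneg hU 1))) h4
  replace h5 := mul_nonneg (mul_nonneg (mul_nonneg (pow_nonneg hX 1) (pow_nonneg hY 3)) (mul_nonneg (pow_nonneg hT 2) (pow_nonneg hU 0))) h5
  replace h6 := mul_nonneg (mul_nonneg (mul_nonneg (pow_nonneg hX 2) (pow_nonneg hY 2)) (mul_nonneg (pow_nonneg hT 0) (pow_nonneg hU 2))) h6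
  replace h7 := mul_nonneg (mul_nonneg (mul_nonneg (pow_nonneg hX 2) (pow_nonneg hY 2)) (mul_nonneg (pow_nonneg hT 1) (pow_nonneg hU 1))) h7
  replace h8 := mul_nonneg (mul_nonneg (mul_nonneg (pow_nonneg hX 2) (pow_nonneg hY 2)) (mul_nonneg (pow_nonneg hT 2) (pow_nonneg hU 0))) h8
  replace h9 := mul_nonneg (mul_nonneg (mul_nonneg (pow_nonneg hX 3) (pow_nonneg hY 1)) (mul_nonneg (pow_nonneg hT 0) (pow_nonneg hU 2))) h9
  replace h10 := mul_nonneg (mul_nonneg (mul_nonneg (pow_nonneg hX 3) (pow_nonneg hY 1)) (mul_nonneg (pow_nonneg hT 1) (pow_nonneg hU 1))) h10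
  replace h11 := mul_nonneg (mul_nonneg (mul_nonneg (pow_nonneg hX 3) (pow_nonneg hY 1)) (mul_nonneg (pow_nonneg hT 2) (pow_nonneg hU 0))) h11
  replace h12 := mul_nonneg (mul_nonneg (mul_nonneg (pow_nonneg hX 4) (pow_nonneg hY 0)) (mul_nonneg (pow_nonneg hT 0) (pow_nonneg hU 2))) h12
  replace h13 := mul_nonneg (mul_nonneg (mul_nonneg (pow_nonneg hX 4) (pow_nonneg hY 0)) (mul_nonneg (pow_nonneg hT 1) (pow_nonneg hU 1))) h13
  replace h14 := mul_nonneg (mul_nonneg (mul_nonneg (pow_nonneg hX 4) (pow_nonneg hY 0)) (mul_nonneg (pow_nonneg hT 2) (pow_nonneg hU 0))) h14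
  simp only [lin5R]
  have hD : (0:ℝ) < 393216000 := by norm_num
  have key : 0 ≤ 393216000 * (a1 * (q) + a2 * (r^2*q^2) + a3 * (r*(3*q-1)) + a4 * (r^3*q*(3*q-1)) + a5 * ((-81/20)*((481/256) - r^2)/(225/256) - (-21/4)*(3*q*(1-r)+r))) := by
    push_cast at *
    linear_combination (exp := 1) 1 * h0 + 2 * h1 + 1 * h2 + 4 * h3 + 8 * h4 + 4 * h5 + 6 * h6 + 12 * h7 + 6 * h8 + 4 * h9 + 8 * h10 + 4 * h11 + 1 * h12 + 2 * h13 + 1 * h14
  exact nonneg_of_mul_nonneg_right key hD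

def cB6 : List V5 :=
  [(1382400, 216000, 967680, 151200, 350784),
   (1797120, 345600, 1589760, 293760, 700704),
   (2211840, 552960, 2211840, 552960, 1050624),
   (1382400, 270000, 1088640, 207900, 442488),
   (1797120, 432000, 1788480, 403920, 748668),
   (2211840, 691200, 2488320, 760320, 1054848),
   (1382400, 333000, 1209600, 283500, 560816),
   (1797120, 532800, 1987200, 550800, 823256),
   (2211840, 852480, 2764800, 1036800, 1085696),
   (1382400, 405000, 1330560, 382725, 705768),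
   (1797120, 648000, 2185920, 743580, 924468),
   (2211840, 1036800, 3041280, 1399680, 1143168),
   (1382400, 486000, 1451520, 510300, 877344),
   (1797120, 777600, 2384640, 991440, 1052304),
   (2211840, 1244160, 3317760, 1866240, 1227264)]

theorem conecB6 (r q : ℝ) (hr0 : 1/2 ≤ r) (hr1 : r ≤ 3/4) (hq0 : 5/8 ≤ q)
    (hq1 : q ≤ 1) : InCone5 cB6 (q, r^2*q^2, r*(3*q-1), r^3*q*(3*q-1), (-13/80)*((13/16) - r^2)/(9/64) - (-9/16)*(3*q*(1-r)+r)) := by
  intro a1 a2 a3 a4 a5 h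
  have hX : 0 ≤ (r - 1/2) / (1/4) := div_nonneg (by linarith) (by norm_num)
  have hY : 0 ≤ (3/4 - r) / (1/4) := div_nonneg (by linarith) (by norm_num)
  have hT : 0 ≤ (q - 5/8) / (3/8) := div_nonneg (by linarith) (by norm_num)
  have hU : 0 ≤ (1 - q) / (3/8) := div_nonneg (by linarith) (by norm_num)
  simp only [cB6, List.forall_mem_cons, List.not_mem_nil, IsEmpty.forall_iff, implies_true, and_true, lin5] at h
  obtain ⟨h0, h1, h2, h3, h4, h5, h6, h7, h8, h9, h10, h11, h12, h13, h14⟩ := h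
  replace h0 := mul_nonneg (mul_nonneg (mul_nonneg (pow_nonneg hX 0) (pow_nonneg hY 4)) (mul_nonneg (pow_nonneg hT 0) (pow_nonneg hU 2))) h0
  replace h1 := mul_nonneg (mul_nonneg (mul_nonneg (pow_nonneg hX 0) (pow_nonneg hY 4)) (mul_nonneg (pow_nonneg hT 1) (pow_nonneg hU 1))) h1
  replace h2 := mul_nonneg (mul_nonneg (mul_nonneg (pow_nonneg hX 0) (pow_nonneg hY 4)) (mul_nonneg (pow_nonneg hT 2) (pow_nonneg hU 0))) h2
  replace h3 := mul_nonneg (mul_nonneg (mul_nonneg (pow_nonneg hX 1) (pow_nonneg hY 3)) (mul_nonneg (pow_nonneg hT 0) (pow_nonneg hU 2))) h3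
  replace h4 := mul_nonneg (mul_nonneg (mul_nonneg (pow_nonneg hX 1) (pow_nonneg hY 3)) (mul_nonneg (pow_nonneg hT 1) (pow_nonneg hU 1))) h4
  replace h5 := mul_nonneg (mul_nonneg (mul_nonneg (pow_nonneg hX 1) (pow_nonneg hY 3)) (mul_nonneg (pow_nonneg hT 2) (pow_nonneg hU 0))) h5
  replace h6 := mul_nonneg (mul_nonneg (mul_nonneg (pow_nonneg hX 2) (pow_nonneg hY 2)) (mul_nonneg (pow_nonneg hT 0) (pow_nonneg hU 2))) h6
  replace h7 := mul_nonneg (mul_nonneg (mul_nonneg (pow_nonneg hX 2) (pow_nonneg hY 2)) (mul_nonneg (pow_nonneg hT 1) (pow_nonneg hU 1))) h7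
  replace h8 := mul_nonneg (mul_nonneg (mul_nonneg (pow_nonneg hX 2) (pow_nonneg hY 2)) (mul_nonneg (pow_nonneg hT 2) (pow_nonneg hU 0))) h8
  replace h9 := mul_nonneg (mul_nonneg (mul_nonneg (pow_nonneg hX 3) (pow_nonneg hY 1)) (mul_nonneg (pow_nonneg hT 0) (pow_nonneg hU 2))) h9
  replace h10 := mul_nonneg (mul_nonneg (mul_nonneg (pow_nonneg hX 3) (pow_nonneg hY 1)) (mul_nonneg (pow_nonneg hT 1) (pow_nonneg hU 1))) h10
  replace h11 := mul_nonneg (mul_nonneg (mul_nonneg (pow_nonneg hX 3) (pow_nonneg hY 1)) (mul_nonneg (pow_nonneg hT 2) (pow_nonneg hU 0))) h11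
  replace h12 := mul_nonneg (mul_nonneg (mul_nonneg (pow_nonneg hX 4) (pow_nonneg hY 0)) (mul_nonneg (pow_nonneg hT 0) (pow_nonneg hU 2))) h12
  replace h13 := mul_nonneg (mul_nonneg (mul_nonneg (pow_nonneg hX 4) (pow_nonneg hY 0)) (mul_nonneg (pow_nonneg hT 1) (pow_nonneg hU 1))) h13
  replace h14 := mul_nonneg (mul_nonneg (mul_nonneg (pow_nonneg hX 4) (pow_nonneg hY 0)) (mul_nonneg (pow_nonneg hT 2) (pow_nonneg hU 0))) h14
  simp only [lin5R]
  have hD : (0:ℝ) < 2211840 := by norm_num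
  have key : 0 ≤ 2211840 * (a1 * (q) + a2 * (r^2*q^2) + a3 * (r*(3*q-1)) + a4 * (r^3*q*(3*q-1)) + a5 * ((-13/80)*((13/16) - r^2)/(9/64) - (-9/16)*(3*q*(1-r)+r))) := by
    push_cast at *
    linear_combination (exp := 1) 1 * h0 + 2 * h1 + 1 * h2 + 4 * h3 + 8 * h4 + 4 * h5 + 6 * h6 + 12 * h7 + 6 * h8 + 4 * h9 + 8 * h10 + 4 * h11 + 1 * h12 + 2 * h13 + 1 * h14
  exact nonneg_of_mul_nonneg_right key hD

def cB7 : List V5 :=
  [(1040793600, 365904000, 1092833280, 384199200, 517902336),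
   (1353031680, 585446400, 1795368960, 746444160, 1057867776),
   (1665269760, 936714240, 2497904640, 1405071360, 1597833216),
   (1040793600, 396396000, 1138368000, 432224100, 667713024),
   (1353031680, 634233600, 1870176000, 839749680, 1140182784),
   (1665269760, 1014773760, 2601984000, 1580705280, 1612652544),
   (1040793600, 428582000, 1183902720, 485585100, 831679488),
   (1353031680, 685731200, 1944983040, 943422480, 1236653568),
   (1665269760, 1097169920, 2706063360, 1775854080, 1641627648),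
   (1040793600, 462462000, 1229437440, 544726875, 1009801728),
   (1353031680, 739939200, 2019790080, 1058326500, 1347280128),
   (1665269760, 1183902720, 2810142720, 1992144000, 1684758528),
   (1040793600, 498036000, 1274972160, 610094100, 1202079744),
   (1353031680, 796857600, 2094597120, 1185325680, 1472062464),
   (1665269760, 1274972160, 2914222080, 2231201280, 1742045184)]

theorem conecB7 (r q : ℝ) (hr0 : 3/4 ≤ r) (hr1 : r ≤ 7/8) (hq0 : 5/8 ≤ q)
    (hq1 : q ≤ 1) : InCone5 cB7 (q, r^2*q^2, r*(3*q-1), r^3*q*(3*q-1), (-1701/1210)*((85/64) - r^2)/(441/1024) - (-279/121)*(3*q*(1-r)+r)) := by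
  intro a1 a2 a3 a4 a5 h
  have hX : 0 ≤ (r - 3/4) / (1/8) := div_nonneg (by linarith) (by norm_num)
  have hY : 0 ≤ (7/8 - r) / (1/8) := div_nonneg (by linarith) (by norm_num)
  have hT : 0 ≤ (q - 5/8) / (3/8) := div_nonneg (by linarith) (by norm_num)
  have hU : 0 ≤ (1 - q) / (3/8) := div_nonneg (by linarith) (by norm_num)
  simp only [cB7, List.forall_mem_cons, List.not_mem_nil, IsEmpty.forall_iff, implies_true, and_true, lin5] at h
  obtain ⟨h0, h1, h2, h3, h4, h5, h6, h7, h8, h9, h10, h11, h12, h13, h14⟩ := h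
  replace h0 := mul_nonneg (mul_nonneg (mul_nonneg (pow_nonneg hX 0) (pow_nonneg hY 4)) (mul_nonneg (pow_nonneg hT 0) (pow_nonneg hU 2))) h0
  replace h1 := mul_nonneg (mul_nonneg (mul_nonneg (pow_nonneg hX 0) (pow_nonneg hY 4)) (mul_nonneg (pow_nonneg hT 1) (pow_nonneg hU 1))) h1
  replace h2 := mul_nonneg (mul_nonneg (mul_nonneg (pow_nonneg hX 0) (pow_nonneg hY 4)) (mul_nonneg (pow_nonneg hT 2) (pow_nonneg hU 0))) h2
  replace h3 := mul_nonneg (mul_nonneg (mul_nonneg (pow_nonneg hX 1) (pow_nonneg hY 3)) (mul_nonneg (pow_nonneg hT 0) (pow_nonneg hU 2))) h3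
  replace h4 := mul_nonneg (mul_nonneg (mul_nonneg (pow_nonneg hX 1) (pow_nonneg hY 3)) (mul_nonneg (pow_nonneg hT 1) (pow_nonneg hU 1))) h4
  replace h5 := mul_nonneg (mul_nonneg (mul_nonneg (pow_nonneg hX 1) (pow_nonneg hY 3)) (mul_nonneg (pow_nonneg hT 2) (pow_nonneg hU 0))) h5
  replace h6 := mul_nonneg (mul_nonneg (mul_nonneg (pow_nonneg hX 2) (pow_nonneg hY 2)) (mul_nonneg (pow_nonneg hT 0) (pow_nonneg hU 2))) h6
  replace h7 := mul_nonneg (mul_nonneg (mul_nonneg (pow_nonneg hX 2) (pow_nonneg hY 2)) (mul_nonneg (pow_nonneg hT 1) (pow_nonneg hU 1))) h7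
  replace h8 := mul_nonneg (mul_nonneg (mul_nonneg (pow_nonneg hX 2) (pow_nonneg hY 2)) (mul_nonneg (pow_nonneg hT 2) (pow_nonneg hU 0))) h8
  replace h9 := mul_nonneg (mul_nonneg (mul_nonneg (pow_nonneg hX 3) (pow_nonneg hY 1)) (mul_nonneg (pow_nonneg hT 0) (pow_nonneg hU 2))) h9
  replace h10 := mul_nonneg (mul_nonneg (mul_nonneg (pow_nonneg hX 3) (pow_nonneg hY 1)) (mul_nonneg (pow_nonneg hT 1) (pow_nonneg hU 1))) h10
  replace h11 := mul_nonneg (mul_nonneg (mul_nonneg (pow_nonneg hX 3) (pow_nonneg hY 1)) (mul_nonneg (pow_nonneg hT 2) (pow_nonneg hU 0))) h11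
  replace h12 := mul_nonneg (mul_nonneg (mul_nonneg (pow_nonneg hX 4) (pow_nonneg hY 0)) (mul_nonneg (pow_nonneg hT 0) (pow_nonneg hU 2))) h12
  replace h13 := mul_nonneg (mul_nonneg (mul_nonneg (pow_nonneg hX 4) (pow_nonneg hY 0)) (mul_nonneg (pow_nonneg hT 1) (pow_nonneg hU 1))) h13
  replace h14 := mul_nonneg (mul_nonneg (mul_nonneg (pow_nonneg hX 4) (pow_nonneg hY 0)) (mul_nonneg (pow_nonneg hT 2) (pow_nonneg hU 0))) h14
  simp only [lin5R]
  have hD : (0:ℝ) < 1665269760 := by norm_num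
  have key : 0 ≤ 1665269760 * (a1 * (q) + a2 * (r^2*q^2) + a3 * (r*(3*q-1)) + a4 * (r^3*q*(3*q-1)) + a5 * ((-1701/1210)*((85/64) - r^2)/(441/1024) - (-279/121)*(3*q*(1-r)+r))) := by
    push_cast at *
    linear_combination (exp := 1) 1 * h0 + 2 * h1 + 1 * h2 + 4 * h3 + 8 * h4 + 4 * h5 + 6 * h6 + 12 * h7 + 6 * h8 + 4 * h9 + 8 * h10 + 4 * h11 + 1 * h12 + 2 * h13 + 1 * h14
  exact nonneg_of_mul_nonneg_right key hD

def cB8 : List V5 :=
  [(12042240000, 5762400000, 14751744000, 7058940000, 10297036800),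
   (15654912000, 9219840000, 24235008000, 13714512000, 17409484800),
   (19267584000, 14751744000, 33718272000, 25815552000, 24521932800),
   (12042240000, 5968200000, 15015168000, 7437097500, 12084954624),
   (15654912000, 9549120000, 24667776000, 14449218000, 18308346624),
   (19267584000, 15278592000, 34320384000, 27198528000, 24531738624),
   (12042240000, 6178900000, 15278592000, 7833262500, 13948369920),
   (15654912000, 9886240000, 25100544000, 15218910000, 19282705920),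
   (19267584000, 15817984000, 34922496000, 28647360000, 24617041920),
   (12042240000, 6394500000, 15542016000, 8248078125, 15887282688),
   (15654912000, 10231200000, 25533312000, 16024837500, 20332562688),
   (19267584000, 16369920000, 35524608000, 30164400000, 24777842688),
   (12042240000, 6615000000, 15805440000, 8682187500, 17901692928),
   (15654912000, 10584000000, 25966080000, 16868250000, 21457916928),
   (19267584000, 16934400000, 36126720000, 31752000000, 25014140928)]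

theorem conecB8 (r q : ℝ) (hr0 : 7/8 ≤ r) (hr1 : r ≤ 15/16) (hq0 : 5/8 ≤ q)
    (hq1 : q ≤ 1) : InCone5 cB8 (q, r^2*q^2, r*(3*q-1), r^3*q*(3*q-1), (-81/20)*((421/256) - r^2)/(11025/16384) - (-21/4)*(3*q*(1-r)+r)) := by
  intro a1 a2 a3 a4 a5 h
  have hX : 0 ≤ (r - 7/8) / (1/16) := div_nonneg (by linarith) (by norm_num)
  have hY : 0 ≤ (15/16 - r) / (1/16) := div_nonneg (by linarith) (by norm_num)
  have hT : 0 ≤ (q - 5/8) / (3/8) := div_nonneg (by linarith) (by norm_num)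
  have hU : 0 ≤ (1 - q) / (3/8) := div_nonneg (by linarith) (by norm_num)
  simp only [cB8, List.forall_mem_cons, List.not_mem_nil, IsEmpty.forall_iff, implies_true, and_true, lin5] at h
  obtain ⟨h0, h1, h2, h3, h4, h5, h6, h7, h8, h9, h10, h11, h12, h13, h14⟩ := h
  replace h0 := mul_nonneg (mul_nonneg (mul_nonneg (pow_nonneg hX 0) (pow_nonneg hY 4)) (mul_nonneg (pow_nonneg hT 0) (pow_nonneg hU 2))) h0
  replace h1 := mul_nonneg (mul_nonneg (mul_nonneg (pow_nonneg hX 0) (pow_nonneg hY 4)) (mul_nonneg (pow_nonneg hT 1) (pow_nonneg hU 1))) h1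
  replace h2 := mul_nonneg (mul_nonneg (mul_nonneg (pow_nonneg hX 0) (pow_nonneg hY 4)) (mul_nonneg (pow_nonneg hT 2) (pow_nonneg hU 0))) h2
  replace h3 := mul_nonneg (mul_nonneg (mul_nonneg (pow_nonneg hX 1) (pow_nonneg hY 3)) (mul_nonneg (pow_nonneg hT 0) (pow_nonneg hU 2))) h3
  replace h4 := mul_nonneg (mul_nonneg (mul_nonneg (pow_nonneg hX 1) (pow_nonneg hY 3)) (mul_nonneg (pow_nonneg hT 1) (pow_nonneg hU 1))) h4
  replace h5 := mul_nonneg (mul_nonneg (mul_nonneg (pow_nonneg hX 1) (pow_nonneg hY 3)) (mul_nonneg (pow_nonneg hT 2) (pow_nonneg hU 0))) h5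
  replace h6 := mul_nonneg (mul_nonneg (mul_nonneg (pow_nonneg hX 2) (pow_nonneg hY 2)) (mul_nonneg (pow_nonneg hT 0) (pow_nonneg hU 2))) h6
  replace h7 := mul_nonneg (mul_nonneg (mul_nonneg (pow_nonneg hX 2) (pow_nonneg hY 2)) (mul_nonneg (pow_nonneg hT 1) (pow_nonneg hU 1))) h7
  replace h8 := mul_nonneg (mul_nonneg (mul_nonneg (pow_nonneg hX 2) (pow_nonneg hY 2)) (mul_nonneg (pow_nonneg hT 2) (pow_nonneg hU 0))) h8
  replace h9 := mul_nonneg (mul_nonneg (mul_nonneg (pow_nonneg hX 3) (pow_nonneg hY 1)) (mul_nonneg (pow_nonneg hT 0) (pow_nonneg hU 2))) h9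
  replace h10 := mul_nonneg (mul_nonneg (mul_nonneg (pow_nonneg hX 3) (pow_nonneg hY 1)) (mul_nonneg (pow_nonneg hT 1) (pow_nonneg hU 1))) h10
  replace h11 := mul_nonneg (mul_nonneg (mul_nonneg (pow_nonneg hX 3) (pow_nonneg hY 1)) (mul_nonneg (pow_nonneg hT 2) (pow_nonneg hU 0))) h11
  replace h12 := mul_nonneg (mul_nonneg (mul_nonneg (pow_nonneg hX 4) (pow_nonneg hY 0)) (mul_nonneg (pow_nonneg hT 0) (pow_nonneg hU 2))) h12
  replace h13 := mul_nonneg (mul_nonneg (mul_nonneg (pow_nonneg hX 4) (pow_nonneg hY 0)) (mul_nonneg (pow_nonneg hT 1) (pow_nonneg hU 1))) h13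
  replace h14 := mul_nonneg (mul_nonneg (mul_nonneg (pow_nonneg hX 4) (pow_nonneg hY 0)) (mul_nonneg (pow_nonneg hT 2) (pow_nonneg hU 0))) h14
  simp only [lin5R]
  have hD : (0:ℝ) < 19267584000 := by norm_num
  have key : 0 ≤ 19267584000 * (a1 * (q) + a2 * (r^2*q^2) + a3 * (r*(3*q-1)) + a4 * (r^3*q*(3*q-1)) + a5 * ((-81/20)*((421/256) - r^2)/(11025/16384) - (-21/4)*(3*q*(1-r)+r))) := by
    push_cast at *
    linear_combination (exp := 1) 1 * h0 + 2 * h1 + 1 * h2 + 4 * h3 + 8 * h4 + 4 * h5 + 6 * h6 + 12 * h7 + 6 * h8 + 4 * h9 + 8 * h10 + 4 * h11 + 1 * h12 + 2 * h13 + 1 * h14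
  exact nonneg_of_mul_nonneg_right key hD

def cB9 : List V5 :=
  [(153041633280000, 84068280000000, 200867143680000, 110339617500000, 184324287823872),
   (198954123264000, 134509248000000, 329996021760000, 214374114000000, 271366716751872),
   (244866613248000, 215214796800000, 459124899840000, 403527744000000, 358409145679872),
   (153041633280000, 85469418000000, 202541036544000, 113098107937500, 205280982638592),
   (198954123264000, 136751068800000, 332745988608000, 219733466850000, 281443107950592),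
   (244866613248000, 218801710080000, 462950940672000, 413615937600000, 357605233262592),
   (153041633280000, 86886124200000, 204214929408000, 115917898162500, 226658584248320),
   (198954123264000, 139017798720000, 335495955456000, 225211916430000, 291940405944320),
   (244866613248000, 222428477952000, 466776981504000, 423928313280000, 357222227640320),
   (153041633280000, 88318398600000, 205888822272000, 118800009838125, 248457092653056),
   (198954123264000, 141309437760000, 338245922304000, 230811447685500, 302858610733056),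
   (244866613248000, 226095100416000, 470603022336000, 434468607408000, 357260128813056),
   (153041633280000, 89766241200000, 207562715136000, 121745464627500, 270676507852800),
   (198954123264000, 143625985920000, 340995889152000, 236534045562000, 314197722316800),
   (244866613248000, 229801577472000, 474429063168000, 445240556352000, 357718936780800)]

theorem conecB9 (r q : ℝ) (hr0 : 15/16 ≤ r) (hr1 : r ≤ 31/32) (hq0 : 5/8 ≤ q)
    (hq1 : q ≤ 1) : InCone5 cB9 (q, r^2*q^2, r*(3*q-1), r^3*q*(3*q-1), (-392/45)*((1861/1024) - r^2)/(216225/262144) - (-91/9)*(3*q*(1-r)+r)) := by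
  intro a1 a2 a3 a4 a5 h
  have hX : 0 ≤ (r - 15/16) / (1/32) := div_nonneg (by linarith) (by norm_num)
  have hY : 0 ≤ (31/32 - r) / (1/32) := div_nonneg (by linarith) (by norm_num)
  have hT : 0 ≤ (q - 5/8) / (3/8) := div_nonneg (by linarith) (by norm_num)
  have hU : 0 ≤ (1 - q) / (3/8) := div_nonneg (by linarith) (by norm_num)
  simp only [cB9, List.forall_mem_cons, List.not_mem_nil, IsEmpty.forall_iff, implies_true, and_true, lin5] at h
  obtain ⟨h0, h1, h2, h3, h4, h5, h6, h7, h8, h9, h10, h11, h12, h13, h14⟩ := h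
  replace h0 := mul_nonneg (mul_nonneg (mul_nonneg (pow_nonneg hX 0) (pow_nonneg hY 4)) (mul_nonneg (pow_nonneg hT 0) (pow_nonneg hU 2))) h0
  replace h1 := mul_nonneg (mul_nonneg (mul_nonneg (pow_nonneg hX 0) (pow_nonneg hY 4)) (mul_nonneg (pow_nonneg hT 1) (pow_nonneg hU 1))) h1
  replace h2 := mul_nonneg (mul_nonneg (mul_nonneg (pow_nonneg hX 0) (pow_nonneg hY 4)) (mul_nonneg (pow_nonneg hT 2) (pow_nonneg hU 0))) h2
  replace h3 := mul_nonneg (mul_nonneg (mul_nonneg (pow_nonneg hX 1) (pow_nonneg hY 3)) (mul_nonneg (pow_nonneg hT 0) (pow_nonneg hU 2))) h3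
  replace h4 := mul_nonneg (mul_nonneg (mul_nonneg (pow_nonneg hX 1) (pow_nonneg hY 3)) (mul_nonneg (pow_nonneg hT 1) (pow_nonneg hU 1))) h4
  replace h5 := mul_nonneg (mul_nonneg (mul_nonneg (pow_nonneg hX 1) (pow_nonneg hY 3)) (mul_nonneg (pow_nonneg hT 2) (pow_nonneg hU 0))) h5
  replace h6 := mul_nonneg (mul_nonneg (mul_nonneg (pow_nonneg hX 2) (pow_nonneg hY 2)) (mul_nonneg (pow_nonneg hT 0) (pow_nonneg hU 2))) h6
  replace h7 := mul_nonneg (mul_nonneg (mul_nonneg (pow_nonneg hX 2) (pow_nonneg hY 2)) (mul_nonneg (pow_nonneg hT 1) (pow_nonneg hU 1))) h7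
  replace h8 := mul_nonneg (mul_nonneg (mul_nonneg (pow_nonneg hX 2) (pow_nonneg hY 2)) (mul_nonneg (pow_nonneg hT 2) (pow_nonneg hU 0))) h8
  replace h9 := mul_nonneg (mul_nonneg (mul_nonneg (pow_nonneg hX 3) (pow_nonneg hY 1)) (mul_nonneg (pow_nonneg hT 0) (pow_nonneg hU 2))) h9
  replace h10 := mul_nonneg (mul_nonneg (mul_nonneg (pow_nonneg hX 3) (pow_nonneg hY 1)) (mul_nonneg (pow_nonneg hT 1) (pow_nonneg hU 1))) h10
  replace h11 := mul_nonneg (mul_nonneg (mul_nonneg (pow_nonneg hX 3) (pow_nonneg hY 1)) (mul_nonneg (pow_nonneg hT 2) (pow_nonneg hU 0))) h11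
  replace h12 := mul_nonneg (mul_nonneg (mul_nonneg (pow_nonneg hX 4) (pow_nonneg hY 0)) (mul_nonneg (pow_nonneg hT 0) (pow_nonneg hU 2))) h12
  replace h13 := mul_nonneg (mul_nonneg (mul_nonneg (pow_nonneg hX 4) (pow_nonneg hY 0)) (mul_nonneg (pow_nonneg hT 1) (pow_nonneg hU 1))) h13
  replace h14 := mul_nonneg (mul_nonneg (mul_nonneg (pow_nonneg hX 4) (pow_nonneg hY 0)) (mul_nonneg (pow_nonneg hT 2) (pow_nonneg hU 0))) h14
  simp only [lin5R]
  have hD : (0:ℝ) < 244866613248000 := by norm_num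
  have key : 0 ≤ 244866613248000 * (a1 * (q) + a2 * (r^2*q^2) + a3 * (r*(3*q-1)) + a4 * (r^3*q*(3*q-1)) + a5 * ((-392/45)*((1861/1024) - r^2)/(216225/262144) - (-91/9)*(3*q*(1-r)+r))) := by
    push_cast at *
    linear_combination (exp := 1) 1 * h0 + 2 * h1 + 1 * h2 + 4 * h3 + 8 * h4 + 4 * h5 + 6 * h6 + 12 * h7 + 6 * h8 + 4 * h9 + 8 * h10 + 4 * h11 + 1 * h12 + 2 * h13 + 1 * h14
  exact nonneg_of_mul_nonneg_right key hD

def cB10 : List V5 :=
  [(75576115200, 44329008000, 102500106240, 60121217100, 95259721728),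
   (98248949760, 70926412800, 168393031680, 116806936080, 146273599488),
   (120921784320, 113482260480, 234285957120, 219871879680, 197287477248),
   (75576115200, 45043992000, 103326720000, 61575762675, 119108861952),
   (98248949760, 72070387200, 169751040000, 119632910340, 157369270272),
   (120921784320, 115312619520, 236175360000, 225191360640, 195629678592),
   (75576115200, 45766664000, 104153333760, 63061588800, 143427764224),
   (98248949760, 73226662400, 171109048320, 122519658240, 168934703104),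
   (120921784320, 117162659840, 238064762880, 230625239040, 194441641984),
   (75576115200, 46497024000, 104979947520, 64579200000, 168216428544),
   (98248949760, 74395238400, 172467056640, 125468160000, 180969897984),
   (120921784320, 119032381440, 239954165760, 236175360000, 193723367424),
   (75576115200, 47235072000, 105806561280, 66129100800, 193474854912),
   (98248949760, 75576115200, 173825064960, 128479395840, 193474854912),
   (120921784320, 120921784320, 241843568640, 241843568640, 193474854912)]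

theorem conecB10 (r q : ℝ) (hr0 : 31/32 ≤ r) (hr1 : r ≤ 1) (hq0 : 5/8 ≤ q)
    (hq1 : q ≤ 1) : InCone5 cB10 (q, r^2*q^2, r*(3*q-1), r^3*q*(3*q-1), (-112/5)*((1985/1024) - r^2)/(961/1024) - (-24)*(3*q*(1-r)+r)) := by
  intro a1 a2 a3 a4 a5 h
  have hX : 0 ≤ (r - 31/32) / (1/32) := div_nonneg (by linarith) (by norm_num)
  have hY : 0 ≤ (1 - r) / (1/32) := div_nonneg (by linarith) (by norm_num)
  have hT : 0 ≤ (q - 5/8) / (3/8) := div_nonneg (by linarith) (by norm_num)
  have hU : 0 ≤ (1 - q) / (3/8) := div_nonneg (by linarith) (by norm_num)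
  simp only [cB10, List.forall_mem_cons, List.not_mem_nil, IsEmpty.forall_iff, implies_true, and_true, lin5] at h
  obtain ⟨h0, h1, h2, h3, h4, h5, h6, h7, h8, h9, h10, h11, h12, h13, h14⟩ := h
  replace h0 := mul_nonneg (mul_nonneg (mul_nonneg (pow_nonneg hX 0) (pow_nonneg hY 4)) (mul_nonneg (pow_nonneg hT 0) (pow_nonneg hU 2))) h0
  replace h1 := mul_nonneg (mul_nonneg (mul_nonneg (pow_nonneg hX 0) (pow_nonneg hY 4)) (mul_nonneg (pow_nonneg hT 1) (pow_nonneg hU 1))) h1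
  replace h2 := mul_nonneg (mul_nonneg (mul_nonneg (pow_nonneg hX 0) (pow_nonneg hY 4)) (mul_nonneg (pow_nonneg hT 2) (pow_nonneg hU 0))) h2
  replace h3 := mul_nonneg (mul_nonneg (mul_nonneg (pow_nonneg hX 1) (pow_nonneg hY 3)) (mul_nonneg (pow_nonneg hT 0) (pow_nonneg hU 2))) h3
  replace h4 := mul_nonneg (mul_nonneg (mul_nonneg (pow_nonneg hX 1) (pow_nonneg hY 3)) (mul_nonneg (pow_nonneg hT 1) (pow_nonneg hU 1))) h4
  replace h5 := mul_nonneg (mul_nonneg (mul_nonneg (pow_nonneg hX 1) (pow_nonneg hY 3)) (mul_nonneg (pow_nonneg hT 2) (pow_nonneg hU 0))) h5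
  replace h6 := mul_nonneg (mul_nonneg (mul_nonneg (pow_nonneg hX 2) (pow_nonneg hY 2)) (mul_nonneg (pow_nonneg hT 0) (pow_nonneg hU 2))) h6
  replace h7 := mul_nonneg (mul_nonneg (mul_nonneg (pow_nonneg hX 2) (pow_nonneg hY 2)) (mul_nonneg (pow_nonneg hT 1) (pow_nonneg hU 1))) h7
  replace h8 := mul_nonneg (mul_nonneg (mul_nonneg (pow_nonneg hX 2) (pow_nonneg hY 2)) (mul_nonneg (pow_nonneg hT 2) (pow_nonneg hU 0))) h8
  replace h9 := mul_nonneg (mul_nonneg (mul_nonneg (pow_nonneg hX 3) (pow_nonneg hY 1)) (mul_nonneg (pow_nonneg hT 0) (pow_nonneg hU 2))) h9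
  replace h10 := mul_nonneg (mul_nonneg (mul_nonneg (pow_nonneg hX 3) (pow_nonneg hY 1)) (mul_nonneg (pow_nonneg hT 1) (pow_nonneg hU 1))) h10
  replace h11 := mul_nonneg (mul_nonneg (mul_nonneg (pow_nonneg hX 3) (pow_nonneg hY 1)) (mul_nonneg (pow_nonneg hT 2) (pow_nonneg hU 0))) h11
  replace h12 := mul_nonneg (mul_nonneg (mul_nonneg (pow_nonneg hX 4) (pow_nonneg hY 0)) (mul_nonneg (pow_nonneg hT 0) (pow_nonneg hU 2))) h12
  replace h13 := mul_nonneg (mul_nonneg (mul_nonneg (pow_nonneg hX 4) (pow_nonneg hY 0)) (mul_nonneg (pow_nonneg hT 1) (pow_nonneg hU 1))) h13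
  replace h14 := mul_nonneg (mul_nonneg (mul_nonneg (pow_nonneg hX 4) (pow_nonneg hY 0)) (mul_nonneg (pow_nonneg hT 2) (pow_nonneg hU 0))) h14
  simp only [lin5R]
  have hD : (0:ℝ) < 120921784320 := by norm_num
  have key : 0 ≤ 120921784320 * (a1 * (q) + a2 * (r^2*q^2) + a3 * (r*(3*q-1)) + a4 * (r^3*q*(3*q-1)) + a5 * ((-112/5)*((1985/1024) - r^2)/(961/1024) - (-24)*(3*q*(1-r)+r))) := by
    push_cast at *
    linear_combination (exp := 1) 1 * h0 + 2 * h1 + 1 * h2 + 4 * h3 + 8 * h4 + 4 * h5 + 6 * h6 + 12 * h7 + 6 * h8 + 4 * h9 + 8 * h10 + 4 * h11 + 1 * h12 + 2 * h13 + 1 * h14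
  exact nonneg_of_mul_nonneg_right key hD

end Vale.Agent.Lib.P154.Ineq3
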