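import Vale.Agent.Lib.P154.Ineq3.ConeB

set_option maxRecDepth 4000

namespace Vale.Agent.Lib.P154.Ineq3

/-- 400 times the bilinear form -/
def bilBZ : V5 → V5 → ℤ
  | (g1, g2, g3, g4, g5), (h1, h2, h3, h4, h5) =>
    g1 * ((392) * h1 + (-800) * h2 + (160) * h3 + (90) * h5) +
    g2 * ((-800) * h1 + (-800) * h2 + (-400) * h3 + (1200) * h4) +
    g3 * ((160) * h1 + (-400) * h2 + (-200) * h3 + (320) * h4) +
    g4 * ((1200) * h2 + (320) * h3 + (-800) * h4 + (-45) * h5) +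
    g5 * ((90) * h1 + (-45) * h4)

noncomputable def bilBR : R5 → R5 → ℝ
  | (g1, g2, g3, g4, g5), (h1, h2, h3, h4, h5) =>
    g1 * ((392) * h1 + (-800) * h2 + (160) * h3 + (90) * h5) +
    g2 * ((-800) * h1 + (-800) * h2 + (-400) * h3 + (1200) * h4) +
    g3 * ((160) * h1 + (-400) * h2 + (-200) * h3 + (320) * h4) +
    g4 * ((1200) * h2 + (320) * h3 + (-800) * h4 + (-45) * h5) +
    g5 * ((90) * h1 + (-45) * h4)

def cellsB : List (List V5) := [cB0, cB1, cB2, cB3, cB4, cB5, cB6, cB7, cB8, cB9, cB10]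

theorem checkB : ∀ C ∈ cellsB, ∀ C' ∈ cellsB, ∀ g ∈ C, ∀ h ∈ C', 0 ≤ bilBZ g h := by
  decide +kernel

theorem pairB (C C' : List V5) (hC : C ∈ cellsB) (hC' : C' ∈ cellsB) (f f' : R5) (hf : InCone5 C f)
    (hf' : InCone5 C' f') : 0 ≤ bilBR f f' := by
  obtain ⟨f1, f2, f3, f4, f5⟩ := f
  obtain ⟨e1, e2, e3, e4, e5⟩ := f'
  have key := hf ((392) * e1 + (-800) * e2 + (160) * e3 + (90) * e5) ((-800) * e1 + (-800) * e2 + (-400) * e3 + (1200) * e4) ((160) * e1 + (-400) * e2 + (-200) * e3 + (320) * e4) ((1200) * e2 + (320) * e3 + (-800) * e4 + (-45) * e5) ((90) * e1 + (-45) * e4) ?_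
  · simp only [lin5R] at key; simp only [bilBR]; linarith
  intro g hg
  obtain ⟨g1, g2, g3, g4, g5⟩ := g
  have key2 := hf' ((392) * (g1:ℝ) + (-800) * (g2:ℝ) + (160) * (g3:ℝ) + (90) * (g5:ℝ)) ((-800) * (g1:ℝ) + (-800) * (g2:ℝ) + (-400) * (g3:ℝ) + (1200) * (g4:ℝ)) ((160) * (g1:ℝ) + (-400) * (g2:ℝ) + (-200) * (g3:ℝ) + (320) * (g4:ℝ)) ((1200) * (g2:ℝ) + (320) * (g3:ℝ) + (-800) * (g4:ℝ) + (-45) * (g5:ℝ)) ((90) * (g1:ℝ) + (-45) * (g4:ℝ)) ?_
  · simp only [lin5R] at key2; simp only [lin5]; linarith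
  intro h hh
  obtain ⟨h1, h2, h3, h4, h5⟩ := h
  have := checkB C hC C' hC' _ hg _ hh
  simp only [bilBZ] at this
  have h2 := (Int.cast_le (R := ℝ)).mpr this
  push_cast at h2
  simp only [lin5]; linarith

end Vale.Agent.Lib.P154.Ineq3
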