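import Vale.Agent.Lib.P154.Ineq3.PairA
import Vale.Agent.Lib.P154.Ineq3.PairB

namespace Vale.Agent.Lib.P154.Ineq3

/-- parametrisation of centred triples -/
theorem param_aux (r v : ℝ) (hr : 0 ≤ r) (h1 : -r ≤ v) (h2 : v ≤ 2 * r) :
    ∃ q : ℝ, 1 / 4 ≤ q ∧ q ≤ 1 ∧ (r ^ 2 - r * v + v ^ 2) / 3 = r ^ 2 * q ∧
      -r * v * (r - v) = r ^ 3 * (3 * q - 1) := by
  rcases hr.eq_or_lt with h0 | h0
  · subst h0
    have : v = 0 := by linarith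
    subst this
    exact ⟨1 / 2, by norm_num, by norm_num, by norm_num, by norm_num⟩
  · refine ⟨(r ^ 2 - r * v + v ^ 2) / 3 / r ^ 2, ?_, ?_, ?_, ?_⟩
    · rw [le_div_iff₀ (by positivity)]
      nlinarith [sq_nonneg (r - 2 * v)]
    · rw [div_le_iff₀ (by positivity)]
      nlinarith
    · field_simp
    · field_simp
      ring

theorem param (a b : ℝ) (ha : -1 ≤ a) (hb : -1 ≤ b) (hc : -1 ≤ -a - b) :
    ∃ r q : ℝ, 0 ≤ r ∧ r ≤ 1 ∧ 1 / 4 ≤ q ∧ q ≤ 1 ∧ (a ^ 2 + a * b + b ^ 2) / 3 = r ^ 2 * q ∧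
      a * b * (-a - b) = r ^ 3 * (3 * q - 1) := by
  rcases le_total a b with h1 | h1
  · rcases le_total a (-a - b) with h2 | h2
    · -- a is the minimum
      obtain ⟨q, hq1, hq2, hq3, hq4⟩ := param_aux (-a) b (by linarith) (by linarith) (by linarith)
      exact ⟨-a, q, by linarith, by linarith, hq1, hq2, by rw [← hq3]; ring, by rw [← hq4]; ring⟩
    · obtain ⟨q, hq1, hq2, hq3, hq4⟩ :=
        param_aux (a + b) a (by linarith) (by linarith) (by linarith)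
      exact ⟨a + b, q, by linarith, by linarith, hq1, hq2, by rw [← hq3]; ring,
        by rw [← hq4]; ring⟩
  · rcases le_total b (-a - b) with h2 | h2
    · obtain ⟨q, hq1, hq2, hq3, hq4⟩ := param_aux (-b) a (by linarith) (by linarith) (by linarith)
      exact ⟨-b, q, by linarith, by linarith, hq1, hq2, by rw [← hq3]; ring, by rw [← hq4]; ring⟩
    · obtain ⟨q, hq1, hq2, hq3, hq4⟩ :=
        param_aux (a + b) a (by linarith) (by linarith) (by linarith)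
      exact ⟨a + b, q, by linarith, by linarith, hq1, hq2, by rw [← hq3]; ring,
        by rw [← hq4]; ring⟩

/-- lower bound for `B = 2 - 3 L + L^3` by tangents -/
theorem B_tangent (L L0 : ℝ) (hL : 0 ≤ L) (h0 : 0 < L0) :
    2 - 2 * L0 + (1 - 1 / L0 ^ 2) * L ^ 3 ≤ 2 - 3 * L + L ^ 3 := by
  have h : 0 ≤ (L - L0) ^ 2 * (L + 2 * L0) := by positivity
  have h2 : 2 - 3 * L + L ^ 3 - (2 - 2 * L0 + (1 - 1 / L0 ^ 2) * L ^ 3) =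
      ((L - L0) ^ 2 * (L + 2 * L0)) / L0 ^ 2 := by
    field_simp
    ring
  have h3 : 0 ≤ ((L - L0) ^ 2 * (L + 2 * L0)) / L0 ^ 2 := by positivity
  linarith

theorem B_mu (L : ℝ) (hL : 0 ≤ L) (h1 : L ≤ 1) :
    (1 - L ^ 3) ^ 2 / 3 ≤ 2 - 3 * L + L ^ 3 := by
  have h : 2 - 3 * L + L ^ 3 - (1 - L ^ 3) ^ 2 / 3 =
      (1 - L) ^ 2 * (3 * (2 + L) - (1 + L + L ^ 2) ^ 2) / 3 := by ring
  have h2 : (1 + L + L ^ 2) ^ 2 ≤ 3 * (2 + L) := by nlinarith [mul_nonneg hL (sub_nonneg.mpr h1)]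
  have h3 : 0 ≤ (1 - L) ^ 2 * (3 * (2 + L) - (1 + L + L ^ 2) ^ 2) / 3 := by
    have := sq_nonneg (1 - L)
    have h4 : 0 ≤ 3 * (2 + L) - (1 + L + L ^ 2) ^ 2 := by linarith
    positivity
  linarith

theorem w_low (L : ℝ) (hL : 0 ≤ L) (h1 : L ≤ 1) :
    2 / 3 * L ^ 3 * (1 - L ^ 3) ≤ L - L ^ 3 := by
  have h : L - L ^ 3 - 2 / 3 * L ^ 3 * (1 - L ^ 3) =
      L * (1 - L) * (3 * (1 + L) - 2 * L ^ 2 * (1 + L + L ^ 2)) / 3 := by ring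
  have h2 : 2 * L ^ 2 * (1 + L + L ^ 2) ≤ 3 * (1 + L) := by
    nlinarith [mul_nonneg hL (sub_nonneg.mpr h1), mul_nonneg (mul_nonneg hL hL) (sub_nonneg.mpr h1),
      mul_nonneg (mul_nonneg (mul_nonneg hL hL) hL) (sub_nonneg.mpr h1)]
  have h3 : 0 ≤ L * (1 - L) * (3 * (1 + L) - 2 * L ^ 2 * (1 + L + L ^ 2)) / 3 := by
    have h5 : 0 ≤ 1 - L := by linarith
    have h4 : 0 ≤ 3 * (1 + L) - 2 * L ^ 2 * (1 + L + L ^ 2) := by linarith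
    positivity
  linarith

/-- scaled tangent bound on a cell `[r0, r1]` -/
theorem B_cell (r mu L L0 r0 r1 : ℝ) (hL : 0 ≤ L) (hr0 : 0 < r0) (h0 : r0 ≤ r) (h1 : r ≤ r1)
    (hL0 : 0 < L0) (hk : L ^ 3 = 1 - r ^ 2 * mu) (hb : 3 - 2 * L0 - 1 / L0 ^ 2 ≤ 0) :
    r ^ 2 * ((3 - 2 * L0 - 1 / L0 ^ 2) * ((r0 ^ 2 + r1 ^ 2) - r ^ 2) / (r0 ^ 2 * r1 ^ 2) -
      (1 - 1 / L0 ^ 2) * mu) ≤ 2 - 3 * L + L ^ 3 := by
  have ht := B_tangent L L0 hL hL0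
  have hr : 0 < r := by linarith
  have hr1 : 0 < r1 := by linarith
  have hch : 1 ≤ r ^ 2 * ((r0 ^ 2 + r1 ^ 2) - r ^ 2) / (r0 ^ 2 * r1 ^ 2) := by
    rw [le_div_iff₀ (by positivity)]
    have e1 : 0 ≤ r ^ 2 - r0 ^ 2 := by nlinarith
    have e2 : 0 ≤ r1 ^ 2 - r ^ 2 := by nlinarith
    nlinarith [mul_nonneg e1 e2]
  have e3 : r ^ 2 * ((3 - 2 * L0 - 1 / L0 ^ 2) * ((r0 ^ 2 + r1 ^ 2) - r ^ 2) / (r0 ^ 2 * r1 ^ 2)
      - (1 - 1 / L0 ^ 2) * mu) = (3 - 2 * L0 - 1 / L0 ^ 2) *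
      (r ^ 2 * ((r0 ^ 2 + r1 ^ 2) - r ^ 2) / (r0 ^ 2 * r1 ^ 2)) - (1 - 1 / L0 ^ 2) * (r ^ 2 * mu) := by
    ring
  rw [e3]
  have e4 : (3 - 2 * L0 - 1 / L0 ^ 2) * (r ^ 2 * ((r0 ^ 2 + r1 ^ 2) - r ^ 2) / (r0 ^ 2 * r1 ^ 2)) ≤
      3 - 2 * L0 - 1 / L0 ^ 2 := by
    nlinarith [mul_nonneg (sub_nonneg.mpr hch) (neg_nonneg.mpr hb)]
  have e5 : r ^ 2 * mu = 1 - L ^ 3 := by linarith
  rw [e5]
  nlinarith

end Vale.Agent.Lib.P154.Ineq3
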