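import Vale.Agent.Lib.P154.Ineq3.Core

set_option linter.unusedVariables false

namespace Vale.Agent.Lib.P154.Ineq3

theorem exB0 (r q L : ℝ) (hr0 : 0 ≤ r) (hr1 : r ≤ 1/2) (hq0 : 1/4 ≤ q) (hq1 : q ≤ 5/8)
    (hL : 0 ≤ L) (hL1 : L ≤ 1) (hk : L ^ 3 = 1 - r ^ 2 * (3*q*(1-r)+r)) :
    ∃ C ∈ cellsB, ∃ b : ℝ, InCone5 C (q, r^2*q^2, r*(3*q-1), r^3*q*(3*q-1), b) ∧
      r ^ 2 * b ≤ 2 - 3 * L + L ^ 3 := by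
  refine ⟨cB0, by simp [cellsB], _, conecB0 r q hr0 hr1 hq0 hq1, ?_⟩
  have h := B_mu L hL hL1
  rw [show 1 - L ^ 3 = r ^ 2 * (3*q*(1-r)+r) by rw [hk]; ring] at h
  linarith

theorem exB1 (r q L : ℝ) (hr0 : 0 ≤ r) (hr1 : r ≤ 1/2) (hq0 : 5/8 ≤ q) (hq1 : q ≤ 1)
    (hL : 0 ≤ L) (hL1 : L ≤ 1) (hk : L ^ 3 = 1 - r ^ 2 * (3*q*(1-r)+r)) :
    ∃ C ∈ cellsB, ∃ b : ℝ, InCone5 C (q, r^2*q^2, r*(3*q-1), r^3*q*(3*q-1), b) ∧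
      r ^ 2 * b ≤ 2 - 3 * L + L ^ 3 := by
  refine ⟨cB1, by simp [cellsB], _, conecB1 r q hr0 hr1 hq0 hq1, ?_⟩
  have h := B_mu L hL hL1
  rw [show 1 - L ^ 3 = r ^ 2 * (3*q*(1-r)+r) by rw [hk]; ring] at h
  linarith

theorem exB2 (r q L : ℝ) (hr0 : 1/2 ≤ r) (hr1 : r ≤ 3/4) (hq0 : 1/4 ≤ q) (hq1 : q ≤ 5/8)
    (hL : 0 ≤ L) (hL1 : L ≤ 1) (hk : L ^ 3 = 1 - r ^ 2 * (3*q*(1-r)+r)) :
    ∃ C ∈ cellsB, ∃ b : ℝ, InCone5 C (q, r^2*q^2, r*(3*q-1), r^3*q*(3*q-1), b) ∧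
      r ^ 2 * b ≤ 2 - 3 * L + L ^ 3 := by
  refine ⟨cB2, by simp [cellsB], _, conecB2 r q hr0 hr1 hq0 hq1, ?_⟩
  have h := B_cell r (3*q*(1-r)+r) L (17/20) (1/2) (3/4) hL (by norm_num) hr0 hr1 (by norm_num) hk (by norm_num)
  norm_num at h ⊢
  linarith

theorem exB3 (r q L : ℝ) (hr0 : 3/4 ≤ r) (hr1 : r ≤ 7/8) (hq0 : 1/4 ≤ q) (hq1 : q ≤ 5/8)
    (hL : 0 ≤ L) (hL1 : L ≤ 1) (hk : L ^ 3 = 1 - r ^ 2 * (3*q*(1-r)+r)) :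
    ∃ C ∈ cellsB, ∃ b : ℝ, InCone5 C (q, r^2*q^2, r*(3*q-1), r^3*q*(3*q-1), b) ∧
      r ^ 2 * b ≤ 2 - 3 * L + L ^ 3 := by
  refine ⟨cB3, by simp [cellsB], _, conecB3 r q hr0 hr1 hq0 hq1, ?_⟩
  have h := B_cell r (3*q*(1-r)+r) L (7/10) (3/4) (7/8) hL (by norm_num) hr0 hr1 (by norm_num) hk (by norm_num)
  norm_num at h ⊢
  linarith

theorem exB4 (r q L : ℝ) (hr0 : 7/8 ≤ r) (hr1 : r ≤ 15/16) (hq0 : 1/4 ≤ q) (hq1 : q ≤ 5/8)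
    (hL : 0 ≤ L) (hL1 : L ≤ 1) (hk : L ^ 3 = 1 - r ^ 2 * (3*q*(1-r)+r)) :
    ∃ C ∈ cellsB, ∃ b : ℝ, InCone5 C (q, r^2*q^2, r*(3*q-1), r^3*q*(3*q-1), b) ∧
      r ^ 2 * b ≤ 2 - 3 * L + L ^ 3 := by
  refine ⟨cB4, by simp [cellsB], _, conecB4 r q hr0 hr1 hq0 hq1, ?_⟩
  have h := B_cell r (3*q*(1-r)+r) L (11/20) (7/8) (15/16) hL (by norm_num) hr0 hr1 (by norm_num) hk (by norm_num)
  norm_num at h ⊢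
  linarith

theorem exB5 (r q L : ℝ) (hr0 : 15/16 ≤ r) (hr1 : r ≤ 1) (hq0 : 1/4 ≤ q) (hq1 : q ≤ 5/8)
    (hL : 0 ≤ L) (hL1 : L ≤ 1) (hk : L ^ 3 = 1 - r ^ 2 * (3*q*(1-r)+r)) :
    ∃ C ∈ cellsB, ∃ b : ℝ, InCone5 C (q, r^2*q^2, r*(3*q-1), r^3*q*(3*q-1), b) ∧
      r ^ 2 * b ≤ 2 - 3 * L + L ^ 3 := by
  refine ⟨cB5, by simp [cellsB], _, conecB5 r q hr0 hr1 hq0 hq1, ?_⟩
  have h := B_cell r (3*q*(1-r)+r) L (2/5) (15/16) (1) hL (by norm_num) hr0 hr1 (by norm_num) hk (by norm_num)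
  norm_num at h ⊢
  linarith

theorem exB6 (r q L : ℝ) (hr0 : 1/2 ≤ r) (hr1 : r ≤ 3/4) (hq0 : 5/8 ≤ q) (hq1 : q ≤ 1)
    (hL : 0 ≤ L) (hL1 : L ≤ 1) (hk : L ^ 3 = 1 - r ^ 2 * (3*q*(1-r)+r)) :
    ∃ C ∈ cellsB, ∃ b : ℝ, InCone5 C (q, r^2*q^2, r*(3*q-1), r^3*q*(3*q-1), b) ∧
      r ^ 2 * b ≤ 2 - 3 * L + L ^ 3 := by
  refine ⟨cB6, by simp [cellsB], _, conecB6 r q hr0 hr1 hq0 hq1, ?_⟩
  have h := B_cell r (3*q*(1-r)+r) L (4/5) (1/2) (3/4) hL (by norm_num) hr0 hr1 (by norm_num) hk (by norm_num)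
  norm_num at h ⊢
  linarith

theorem exB7 (r q L : ℝ) (hr0 : 3/4 ≤ r) (hr1 : r ≤ 7/8) (hq0 : 5/8 ≤ q) (hq1 : q ≤ 1)
    (hL : 0 ≤ L) (hL1 : L ≤ 1) (hk : L ^ 3 = 1 - r ^ 2 * (3*q*(1-r)+r)) :
    ∃ C ∈ cellsB, ∃ b : ℝ, InCone5 C (q, r^2*q^2, r*(3*q-1), r^3*q*(3*q-1), b) ∧
      r ^ 2 * b ≤ 2 - 3 * L + L ^ 3 := by
  refine ⟨cB7, by simp [cellsB], _, conecB7 r q hr0 hr1 hq0 hq1, ?_⟩
  have h := B_cell r (3*q*(1-r)+r) L (11/20) (3/4) (7/8) hL (by norm_num) hr0 hr1 (by norm_num) hk (by norm_num)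
  norm_num at h ⊢
  linarith

theorem exB8 (r q L : ℝ) (hr0 : 7/8 ≤ r) (hr1 : r ≤ 15/16) (hq0 : 5/8 ≤ q) (hq1 : q ≤ 1)
    (hL : 0 ≤ L) (hL1 : L ≤ 1) (hk : L ^ 3 = 1 - r ^ 2 * (3*q*(1-r)+r)) :
    ∃ C ∈ cellsB, ∃ b : ℝ, InCone5 C (q, r^2*q^2, r*(3*q-1), r^3*q*(3*q-1), b) ∧
      r ^ 2 * b ≤ 2 - 3 * L + L ^ 3 := by
  refine ⟨cB8, by simp [cellsB], _, conecB8 r q hr0 hr1 hq0 hq1, ?_⟩
  have h := B_cell r (3*q*(1-r)+r) L (2/5) (7/8) (15/16) hL (by norm_num) hr0 hr1 (by norm_num) hk (by norm_num)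
  norm_num at h ⊢
  linarith

theorem exB9 (r q L : ℝ) (hr0 : 15/16 ≤ r) (hr1 : r ≤ 31/32) (hq0 : 5/8 ≤ q) (hq1 : q ≤ 1)
    (hL : 0 ≤ L) (hL1 : L ≤ 1) (hk : L ^ 3 = 1 - r ^ 2 * (3*q*(1-r)+r)) :
    ∃ C ∈ cellsB, ∃ b : ℝ, InCone5 C (q, r^2*q^2, r*(3*q-1), r^3*q*(3*q-1), b) ∧
      r ^ 2 * b ≤ 2 - 3 * L + L ^ 3 := by
  refine ⟨cB9, by simp [cellsB], _, conecB9 r q hr0 hr1 hq0 hq1, ?_⟩
  have h := B_cell r (3*q*(1-r)+r) L (3/10) (15/16) (31/32) hL (by norm_num) hr0 hr1 (by norm_num) hk (by norm_num)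
  norm_num at h ⊢
  linarith

theorem exB10 (r q L : ℝ) (hr0 : 31/32 ≤ r) (hr1 : r ≤ 1) (hq0 : 5/8 ≤ q) (hq1 : q ≤ 1)
    (hL : 0 ≤ L) (hL1 : L ≤ 1) (hk : L ^ 3 = 1 - r ^ 2 * (3*q*(1-r)+r)) :
    ∃ C ∈ cellsB, ∃ b : ℝ, InCone5 C (q, r^2*q^2, r*(3*q-1), r^3*q*(3*q-1), b) ∧
      r ^ 2 * b ≤ 2 - 3 * L + L ^ 3 := by
  refine ⟨cB10, by simp [cellsB], _, conecB10 r q hr0 hr1 hq0 hq1, ?_⟩
  have h := B_cell r (3*q*(1-r)+r) L (1/5) (31/32) (1) hL (by norm_num) hr0 hr1 (by norm_num) hk (by norm_num)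
  norm_num at h ⊢
  linarith

theorem exB (r q L : ℝ) (hr0 : 0 ≤ r) (hr1 : r ≤ 1) (hq0 : 1 / 4 ≤ q) (hq1 : q ≤ 1)
    (hL : 0 ≤ L) (hL1 : L ≤ 1) (hk : L ^ 3 = 1 - r ^ 2 * (3*q*(1-r)+r)) :
    ∃ C ∈ cellsB, ∃ b : ℝ, InCone5 C (q, r^2*q^2, r*(3*q-1), r^3*q*(3*q-1), b) ∧
      r ^ 2 * b ≤ 2 - 3 * L + L ^ 3 := by
  rcases le_total q (5/8) with h | h
  · rcases le_total r (1/2) with h1 | h1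
    · exact exB0 r q L hr0 h1 hq0 h hL hL1 hk
    rcases le_total r (3/4) with h2 | h2
    · exact exB2 r q L h1 h2 hq0 h hL hL1 hk
    rcases le_total r (7/8) with h3 | h3
    · exact exB3 r q L h2 h3 hq0 h hL hL1 hk
    rcases le_total r (15/16) with h4 | h4
    · exact exB4 r q L h3 h4 hq0 h hL hL1 hk
    · exact exB5 r q L h4 hr1 hq0 h hL hL1 hk
  · rcases le_total r (1/2) with h1 | h1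
    · exact exB1 r q L hr0 h1 h hq1 hL hL1 hk
    rcases le_total r (3/4) with h2 | h2
    · exact exB6 r q L h1 h2 h hq1 hL hL1 hk
    rcases le_total r (7/8) with h3 | h3
    · exact exB7 r q L h2 h3 h hq1 hL hL1 hk
    rcases le_total r (15/16) with h4 | h4
    · exact exB8 r q L h3 h4 h hq1 hL hL1 hk
    rcases le_total r (31/32) with h5 | h5
    · exact exB9 r q L h4 h5 h hq1 hL hL1 hk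
    · exact exB10 r q L h5 hr1 h hq1 hL hL1 hk

theorem exA (r q : ℝ) (hr0 : 0 ≤ r) (hr1 : r ≤ 1) (hq0 : 1 / 4 ≤ q) (hq1 : q ≤ 1) :
    ∃ C ∈ cellsA, InCone8 C (q, r^2*q^2, r^4*q^3, r*(3*q-1), r^3*q*(3*q-1), r^5*q^2*(3*q-1),
      r^4*(3*q-1)^2, 2/3*(3*q*(1-r)+r)*(1-r^2*(3*q*(1-r)+r))) := by
  rcases le_total r (1/2) with h1 | h1 <;> rcases le_total q (5/8) with h | h
  · exact ⟨cA0, by simp [cellsA], conecA0 r q hr0 h1 hq0 h⟩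
  · exact ⟨cA1, by simp [cellsA], conecA1 r q hr0 h1 h hq1⟩
  · exact ⟨cA2, by simp [cellsA], conecA2 r q h1 hr1 hq0 h⟩
  · exact ⟨cA3, by simp [cellsA], conecA3 r q h1 hr1 h hq1⟩

end Vale.Agent.Lib.P154.Ineq3
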