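import Vale.Agent.Lib.P154.Defs

/-! The explicit functionals for `q = 3`. -/

namespace Vale.Agent.Lib.P154.Ineq3

def e2 (W : Fin 3 → ℝ) : ℝ := W 0 * W 1 + W 1 * W 2 + W 2 * W 0

def e3 (W : Fin 3 → ℝ) : ℝ := W 0 * W 1 * W 2

noncomputable def mm (W : Fin 3 → ℝ) : ℝ := (W 0 + W 1 + W 2) / 3

noncomputable def P3 (W : Fin 3 → ℝ) : ℝ := mm W - e2 W / (3 * mm W)

noncomputable def Z3 (W : Fin 3 → ℝ) : ℝ :=
  15 / 4 * mm W + 15 / 8 * (e3 W / mm W ^ 2) - 3 * (e2 W / mm W) + 27 / 8 * e3 W ^ ((1 : ℝ) / 3)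

noncomputable def K3 (W : Fin 3 → ℝ) : ℝ := e3 W / mm W ^ 2

noncomputable def H3 (W : Fin 3 → ℝ) : ℝ :=
  P3 W * (e2 W / mm W ^ 2 - e3 W / mm W ^ 3) / 10

end Vale.Agent.Lib.P154.Ineq3
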