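import Vale.Agent.Lib.P154.Ineq3.Cover

namespace Vale.Agent.Lib.P154.Ineq3

/-- the admissible pairs of invariants of a centred triple with entries at least `-1` -/
def Adm (p s : ℝ) : Prop :=
  ∃ r q : ℝ, 0 ≤ r ∧ r ≤ 1 ∧ 1 / 4 ≤ q ∧ q ≤ 1 ∧ p = r ^ 2 * q ∧ s = r ^ 3 * (3 * q - 1)

theorem adm_of (a b : ℝ) (ha : -1 ≤ a) (hb : -1 ≤ b) (hc : -1 ≤ -a - b) :
    Adm ((a ^ 2 + a * b + b ^ 2) / 3) (a * b * (-a - b)) := by
  obtain ⟨r, q, h1, h2, h3, h4, h5, h6⟩ := param a b ha hb hc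
  exact ⟨r, q, h1, h2, h3, h4, h5, h6⟩

theorem Adm.p_nonneg {p s : ℝ} (h : Adm p s) : 0 ≤ p := by
  obtain ⟨r, q, h1, h2, h3, h4, rfl, rfl⟩ := h
  have : 0 ≤ q := by linarith
  positivity

theorem Adm.s_le {p s : ℝ} (h : Adm p s) : s ≤ 2 := by
  obtain ⟨r, q, h1, h2, h3, h4, rfl, rfl⟩ := h
  have h5 : r ^ 3 ≤ 1 := pow_le_one₀ h1 h2
  have h6 : 0 ≤ r ^ 3 := by positivity
  nlinarith

theorem L_le_one {p s L : ℝ} (h : Adm p s) (hL : 0 ≤ L) (hk : L ^ 3 = 1 - 3 * p + s) : L ≤ 1 := by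
  obtain ⟨r, q, h1, h2, h3, h4, rfl, rfl⟩ := h
  have hm : 0 ≤ 3 * q * (1 - r) + r := by
    have : 0 ≤ q := by linarith
    have : 0 ≤ 1 - r := by linarith
    positivity
  have hk' : L ^ 3 = 1 - r ^ 2 * (3 * q * (1 - r) + r) := by rw [hk]; ring
  have : L ^ 3 ≤ 1 := by
    have : 0 ≤ r ^ 2 * (3 * q * (1 - r) + r) := by positivity
    linarith
  by_contra hcon
  push Not at hcon
  have : 1 < L ^ 3 := one_lt_pow₀ hcon (by norm_num)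
  linarith

theorem GB {p s L p' s' L' : ℝ} (h : Adm p s) (h' : Adm p' s') (hL : 0 ≤ L) (hL' : 0 ≤ L')
    (hk : L ^ 3 = 1 - 3 * p + s) (hk' : L' ^ 3 = 1 - 3 * p' + s') :
    0 ≤ p * p' + p' * s + p * s' -
      (2 * (p + p' + p * p') * (p * p') + 1 / 2 * (1 - (p + p' + p * p')) * (s * s') +
        5 / 2 * (p * p' * s * s') + p ^ 2 * s' + p' ^ 2 * s - 3 * p * p' * (p' * s + p * s')) -
      (2 - s') / 10 * p' * (3 * s - 9 / 8 * (2 - 3 * L + L ^ 3)) -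
      (2 - s) / 10 * p * (3 * s' - 9 / 8 * (2 - 3 * L' + L' ^ 3)) - p * p' / 50 := by
  have hL1 := L_le_one h hL hk
  have hL1' := L_le_one h' hL' hk'
  have hp := h.p_nonneg
  have hp' := h'.p_nonneg
  have hs := h.s_le
  have hs' := h'.s_le
  obtain ⟨r, q, h1, h2, h3, h4, h5, h6⟩ := h
  obtain ⟨r', q', h1', h2', h3', h4', h5', h6'⟩ := h'
  obtain ⟨C, hC, b, hcone, hb⟩ := exB r q L h1 h2 h3 h4 hL hL1 (by rw [hk, h5, h6]; ring)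
  obtain ⟨C', hC', b', hcone', hb'⟩ :=
    exB r' q' L' h1' h2' h3' h4' hL' hL1' (by rw [hk', h5', h6']; ring)
  have key := pairB C C' hC hC' _ _ hcone hcone'
  simp only [bilBR] at key
  have k2 := mul_nonneg (mul_nonneg (sq_nonneg r) (sq_nonneg r')) key
  have k3 : 0 ≤ (2 - 3 * L + L ^ 3 - r ^ 2 * b) * (45 * (p' * (2 - s'))) :=
    mul_nonneg (by linarith) (mul_nonneg (by norm_num) (mul_nonneg hp' (by linarith)))
  have k4 : 0 ≤ (2 - 3 * L' + L' ^ 3 - r' ^ 2 * b') * (45 * (p * (2 - s))) :=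
    mul_nonneg (by linarith) (mul_nonneg (by norm_num) (mul_nonneg hp (by linarith)))
  subst h5 h6 h5' h6'
  linear_combination (exp := 1) (1 / 400) * k2 + (1 / 400) * k3 + (1 / 400) * k4

theorem GA {p s L p' s' L' : ℝ} (h : Adm p s) (h' : Adm p' s') (hL : 0 ≤ L) (hL' : 0 ≤ L')
    (hk : L ^ 3 = 1 - 3 * p + s) (hk' : L' ^ 3 = 1 - 3 * p' + s') :
    0 ≤ ((p + p' + p * p') * (2 * p * p' - s * s' / 2 + 5 / 9 * (6 * p ^ 2 * p' ^ 2) -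
          1 / 9 * (5 / 2 * (p * p' * s * s'))) +
        (s * s' / 2 - 6 * p ^ 2 * p' ^ 2 + 5 / 9 * (5 / 2 * (p * p' * s * s')) -
          1 / 9 * (20 * p ^ 3 * p' ^ 3 + 1 / 2 * (s ^ 2 - 2 * p ^ 3) * (s' ^ 2 - 2 * p' ^ 3))) +
        ((p ^ 2 * s' + p' ^ 2 * s) - 3 * p * p' * (p' * s + p * s') +
          5 / 9 * (1 / 2 * p' * s ^ 2 * s' + 1 / 2 * p * s' ^ 2 * s + 3 * p ^ 3 * p' * s' +
            3 * p * p' ^ 3 * s) -
          1 / 9 * (9 * p ^ 2 * p' ^ 3 * s + 9 * p ^ 3 * p' ^ 2 * s' + 1 / 2 * p ^ 2 * s * s' ^ 2 +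
            1 / 2 * p' ^ 2 * s' * s ^ 2))) -
      (1 / 4 * (p * p') + 1 / 4 * (p * s' + p' * s) + 7 / 12 * (s * s') -
        3 / 8 * ((L - L ^ 3) * (L' - L' ^ 3))) := by
  have hL1 := L_le_one h hL hk
  have hL1' := L_le_one h' hL' hk'
  have hw := w_low L hL hL1
  have hw' := w_low L' hL' hL1'
  have hL3 : L ^ 3 ≤ 1 := pow_le_one₀ hL hL1
  have hL3' : L' ^ 3 ≤ 1 := pow_le_one₀ hL' hL1'
  have hw0 : 0 ≤ 2 / 3 * L ^ 3 * (1 - L ^ 3) :=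
    mul_nonneg (by positivity) (by linarith)
  have hw0' : 0 ≤ 2 / 3 * L' ^ 3 * (1 - L' ^ 3) :=
    mul_nonneg (by positivity) (by linarith)
  obtain ⟨r, q, h1, h2, h3, h4, h5, h6⟩ := h
  obtain ⟨r', q', h1', h2', h3', h4', h5', h6'⟩ := h'
  obtain ⟨C, hC, hcone⟩ := exA r q h1 h2 h3 h4
  obtain ⟨C', hC', hcone'⟩ := exA r' q' h1' h2' h3' h4'
  have key := pairA C C' hC hC' _ _ hcone hcone'
  simp only [bilAR] at key
  have k2 := mul_nonneg (mul_nonneg (sq_nonneg r) (sq_nonneg r')) key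
  have k3 : 2 / 3 * L ^ 3 * (1 - L ^ 3) * (2 / 3 * L' ^ 3 * (1 - L' ^ 3)) ≤
      (L - L ^ 3) * (L' - L' ^ 3) := mul_le_mul hw hw' hw0' (hw0.trans hw)
  rw [hk, hk'] at k3
  rw [hk, hk']
  subst h5 h6 h5' h6'
  linear_combination (exp := 1) (1 / 72) * k2 + (3 / 8) * k3

end Vale.Agent.Lib.P154.Ineq3
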