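import Mathlib

/-! Moments over the six permutations. -/

namespace Vale.Agent.Lib.P154.Ineq3

noncomputable def rho (a b x y : ℝ) : ℝ := (a * x + b * y + (-a - b) * (-x - y)) / 3

noncomputable def AA (a b x y : ℝ) : ℝ :=
  (a * b * (-x - y) + b * (-a - b) * x + (-a - b) * a * y) / 3 +
    (x * y * (-a - b) + y * (-x - y) * a + (-x - y) * x * b) / 3

noncomputable def pp (a b : ℝ) : ℝ := (a ^ 2 + a * b + b ^ 2) / 3

def ss (a b : ℝ) : ℝ := a * b * (-a - b)

/-- sum over the six permutations of `(x, y, -x-y)` -/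
def sum6 (f : ℝ → ℝ → ℝ) (x y : ℝ) : ℝ :=
  f x y + f x (-x - y) + f y x + f y (-x - y) + f (-x - y) x + f (-x - y) y

theorem E2_eq (a b x y : ℝ) :
    ((1 + a) * (1 + x) * ((1 + b) * (1 + y)) + (1 + b) * (1 + y) * ((1 - a - b) * (1 - x - y)) +
      (1 - a - b) * (1 - x - y) * ((1 + a) * (1 + x))) / 3 =
    1 - pp a b - pp x y - pp a b * pp x y + rho a b x y + rho a b x y ^ 2 - AA a b x y := by
  unfold pp rho AA
  ring

theorem mom_R1 (a b x y : ℝ) : sum6 (fun x y => rho a b x y) x y = 0 := by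
  unfold sum6 rho; ring

theorem mom_R2 (a b x y : ℝ) : sum6 (fun x y => rho a b x y ^ 2) x y = 6 * (2 * pp a b * pp x y) := by
  unfold sum6 rho pp; ring

theorem mom_R3 (a b x y : ℝ) :
    sum6 (fun x y => rho a b x y ^ 3) x y = 6 * (ss a b * ss x y / 2) := by
  unfold sum6 rho ss; ring

theorem mom_R4 (a b x y : ℝ) :
    sum6 (fun x y => rho a b x y ^ 4) x y = 6 * (6 * pp a b ^ 2 * pp x y ^ 2) := by
  unfold sum6 rho pp; ring

theorem mom_R5 (a b x y : ℝ) :
    sum6 (fun x y => rho a b x y ^ 5) x y =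
      6 * (5 / 2 * (pp a b * pp x y * ss a b * ss x y)) := by
  unfold sum6 rho pp ss; ring

theorem mom_R6 (a b x y : ℝ) :
    sum6 (fun x y => rho a b x y ^ 6) x y =
      6 * (20 * pp a b ^ 3 * pp x y ^ 3 + 1 / 2 * (ss a b ^ 2 - 2 * pp a b ^ 3) *
        (ss x y ^ 2 - 2 * pp x y ^ 3)) := by
  unfold sum6 rho pp ss; ring

theorem mom_n0 (a b x y : ℝ) : sum6 (fun x y => AA a b x y) x y = 0 := by
  unfold sum6 AA; ring

theorem mom_n1 (a b x y : ℝ) : sum6 (fun x y => rho a b x y * AA a b x y) x y =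
    6 * (pp a b * ss x y + pp x y * ss a b) := by
  unfold sum6 rho AA pp ss; ring

theorem mom_n2 (a b x y : ℝ) : sum6 (fun x y => rho a b x y ^ 2 * AA a b x y) x y =
    6 * (pp a b ^ 2 * ss x y + pp x y ^ 2 * ss a b) := by
  unfold sum6 rho AA pp ss; ring

theorem mom_n3 (a b x y : ℝ) : sum6 (fun x y => rho a b x y ^ 3 * AA a b x y) x y =
    6 * (3 * pp a b * pp x y * (pp x y * ss a b + pp a b * ss x y)) := by
  unfold sum6 rho AA pp ss; ring

theorem mom_n4 (a b x y : ℝ) : sum6 (fun x y => rho a b x y ^ 4 * AA a b x y) x y =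
    6 * (1 / 2 * pp x y * ss a b ^ 2 * ss x y + 1 / 2 * pp a b * ss x y ^ 2 * ss a b +
      3 * pp a b ^ 3 * pp x y * ss x y + 3 * pp a b * pp x y ^ 3 * ss a b) := by
  unfold sum6 rho AA pp ss; ring

theorem mom_n5 (a b x y : ℝ) : sum6 (fun x y => rho a b x y ^ 5 * AA a b x y) x y =
    6 * (9 * pp a b ^ 2 * pp x y ^ 3 * ss a b + 9 * pp a b ^ 3 * pp x y ^ 2 * ss x y +
      1 / 2 * pp a b ^ 2 * ss a b * ss x y ^ 2 + 1 / 2 * pp x y ^ 2 * ss x y * ss a b ^ 2) := by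
  unfold sum6 rho AA pp ss; ring

end Vale.Agent.Lib.P154.Ineq3
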