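import Vale.Agent.Lib.P154.Ineq3.ConeA0
import Vale.Agent.Lib.P154.Ineq3.ConeA1
import Vale.Agent.Lib.P154.Ineq3.ConeA2
import Vale.Agent.Lib.P154.Ineq3.ConeA3

set_option maxRecDepth 4000

namespace Vale.Agent.Lib.P154.Ineq3

/-- 72 times the bilinear form -/
def bilAZ : V8 → V8 → ℤ
  | (g1, g2, g3, g4, g5, g6, g7, g8), (h1, h2, h3, h4, h5, h6, h7, h8) =>
    g1 * ((-18) * h1 + (144) * h2 + (-18) * h4) +
    g2 * ((144) * h1 + (-288) * h2 + (240) * h3 + (72) * h4 + (-216) * h5) +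
    g3 * ((240) * h2 + (64) * h3 + (120) * h5 + (-72) * h6 + (8) * h7) +
    g4 * ((-18) * h1 + (72) * h2 + (-6) * h4 + (-36) * h5) +
    g5 * ((-216) * h2 + (120) * h3 + (-36) * h4 + (64) * h5 + (-20) * h6 + (20) * h7) +
    g6 * ((-72) * h3 + (-20) * h5 + (-20) * h6 + (-4) * h7) +
    g7 * ((8) * h3 + (20) * h5 + (-4) * h6 + (-4) * h7) +
    g8 * ((27) * h8)

noncomputable def bilAR : R8 → R8 → ℝ
  | (g1, g2, g3, g4, g5, g6, g7, g8), (h1, h2, h3, h4, h5, h6, h7, h8) =>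
    g1 * ((-18) * h1 + (144) * h2 + (-18) * h4) +
    g2 * ((144) * h1 + (-288) * h2 + (240) * h3 + (72) * h4 + (-216) * h5) +
    g3 * ((240) * h2 + (64) * h3 + (120) * h5 + (-72) * h6 + (8) * h7) +
    g4 * ((-18) * h1 + (72) * h2 + (-6) * h4 + (-36) * h5) +
    g5 * ((-216) * h2 + (120) * h3 + (-36) * h4 + (64) * h5 + (-20) * h6 + (20) * h7) +
    g6 * ((-72) * h3 + (-20) * h5 + (-20) * h6 + (-4) * h7) +
    g7 * ((8) * h3 + (20) * h5 + (-4) * h6 + (-4) * h7) +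
    g8 * ((27) * h8)

def cellsA : List (List V8) := [cA0, cA1, cA2, cA3]

theorem checkA : ∀ C ∈ cellsA, ∀ C' ∈ cellsA, ∀ g ∈ C, ∀ h ∈ C', 0 ≤ bilAZ g h := by
  decide +kernel

theorem pairA (C C' : List V8) (hC : C ∈ cellsA) (hC' : C' ∈ cellsA) (f f' : R8) (hf : InCone8 C f)
    (hf' : InCone8 C' f') : 0 ≤ bilAR f f' := by
  obtain ⟨f1, f2, f3, f4, f5, f6, f7, f8⟩ := f
  obtain ⟨e1, e2, e3, e4, e5, e6, e7, e8⟩ := f'
  have key := hf ((-18) * e1 + (144) * e2 + (-18) * e4) ((144) * e1 + (-288) * e2 + (240) * e3 + (72) * e4 + (-216) * e5) ((240) * e2 + (64) * e3 + (120) * e5 + (-72) * e6 + (8) * e7) ((-18) * e1 + (72) * e2 + (-6) * e4 + (-36) * e5) ((-216) * e2 + (120) * e3 + (-36) * e4 + (64) * e5 + (-20) * e6 + (20) * e7) ((-72) * e3 + (-20) * e5 + (-20) * e6 + (-4) * e7) ((8) * e3 + (20) * e5 + (-4) * e6 + (-4) * e7) ((27) * e8) ?_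
  · simp only [lin8R] at key; simp only [bilAR]; linarith
  intro g hg
  obtain ⟨g1, g2, g3, g4, g5, g6, g7, g8⟩ := g
  have key2 := hf' ((-18) * (g1:ℝ) + (144) * (g2:ℝ) + (-18) * (g4:ℝ)) ((144) * (g1:ℝ) + (-288) * (g2:ℝ) + (240) * (g3:ℝ) + (72) * (g4:ℝ) + (-216) * (g5:ℝ)) ((240) * (g2:ℝ) + (64) * (g3:ℝ) + (120) * (g5:ℝ) + (-72) * (g6:ℝ) + (8) * (g7:ℝ)) ((-18) * (g1:ℝ) + (72) * (g2:ℝ) + (-6) * (g4:ℝ) + (-36) * (g5:ℝ)) ((-216) * (g2:ℝ) + (120) * (g3:ℝ) + (-36) * (g4:ℝ) + (64) * (g5:ℝ) + (-20) * (g6:ℝ) + (20) * (g7:ℝ)) ((-72) * (g3:ℝ) + (-20) * (g5:ℝ) + (-20) * (g6:ℝ) + (-4) * (g7:ℝ)) ((8) * (g3:ℝ) + (20) * (g5:ℝ) + (-4) * (g6:ℝ) + (-4) * (g7:ℝ)) ((27) * (g8:ℝ)) ?_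
  · simp only [lin8R] at key2; simp only [lin8]; linarith
  intro h hh
  obtain ⟨h1, h2, h3, h4, h5, h6, h7, h8⟩ := h
  have := checkA C hC C' hC' _ hg _ hh
  simp only [bilAZ] at this
  have h2 := (Int.cast_le (R := ℝ)).mpr this
  push_cast at h2
  simp only [lin8]; linarith

end Vale.Agent.Lib.P154.Ineq3
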