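import Vale.Agent.Lib.P154.Ineq3.StarCore

namespace Vale.Agent.Lib.P154.Ineq3

open scoped BigOperators

theorem Pt_homog (t x y z : ℝ) (ht : 0 < t) : Pt (t * x) (t * y) (t * z) = t * Pt x y z := by
  unfold Pt
  rcases eq_or_ne (x + y + z) 0 with h | h
  · have h2 : t * x + t * y + t * z = 0 := by rw [← mul_add, ← mul_add, h, mul_zero]
    rw [h, h2]; simp
  · have h2 : t * x + t * y + t * z = t * (x + y + z) := by ring
    rw [h2]
    have h3 : t * x * (t * y) + t * y * (t * z) + t * z * (t * x) =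
        t * (t * (x * y + y * z + z * x)) := by ring
    rw [h3]
    field_simp

theorem Zt_homog (t x y z : ℝ) (ht : 0 < t) (hk : 0 ≤ x * y * z) :
    Zt (t * x) (t * y) (t * z) = t * Zt x y z := by
  unfold Zt
  have hr : (t * x * (t * y) * (t * z)) ^ ((1 : ℝ) / 3) = t * (x * y * z) ^ ((1 : ℝ) / 3) := by
    rw [show t * x * (t * y) * (t * z) = t ^ 3 * (x * y * z) by ring,
      Real.mul_rpow (by positivity) hk]
    congr 1
    rw [← Real.rpow_natCast, ← Real.rpow_mul ht.le]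
    norm_num
  rw [hr]
  rcases eq_or_ne (x + y + z) 0 with h | h
  · have h2 : t * x + t * y + t * z = 0 := by rw [← mul_add, ← mul_add, h, mul_zero]
    rw [h, h2]; simp; ring
  · have h2 : t * x + t * y + t * z = t * (x + y + z) := by ring
    rw [h2]
    have h3 : t * x * (t * y) + t * y * (t * z) + t * z * (t * x) =
        t * (t * (x * y + y * z + z * x)) := by ring
    have h4 : t * x * (t * y) * (t * z) = t * (t * (t * (x * y * z))) := by ring
    rw [h3, h4]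
    field_simp

/-- normal form of a nonnegative vector with positive mean -/
theorem normal_form (W : Fin 3 → ℝ) (hW : ∀ i, 0 ≤ W i) (hm : 0 < mm W) :
    ∃ a b L : ℝ, -1 ≤ a ∧ -1 ≤ b ∧ -1 ≤ -a - b ∧ 0 ≤ L ∧
      L ^ 3 = (1 + a) * (1 + b) * (1 - a - b) ∧
      W 0 = mm W * (1 + a) ∧ W 1 = mm W * (1 + b) ∧ W 2 = mm W * (1 - a - b) ∧
      P3 W = mm W * pp a b ∧ K3 W = mm W * L ^ 3 ∧
      Z3 W = mm W * (3 * ss a b - 9 / 8 * (2 - 3 * L + L ^ 3)) ∧
      H3 W = mm W * (pp a b * (2 - ss a b) / 10) := by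
  have hne : mm W ≠ 0 := hm.ne'
  have e0 : W 0 = mm W * (1 + (W 0 / mm W - 1)) := by field_simp; ring
  have e1 : W 1 = mm W * (1 + (W 1 / mm W - 1)) := by field_simp; ring
  have e2' : W 2 = mm W * (1 - (W 0 / mm W - 1) - (W 1 / mm W - 1)) := by
    have : W 0 + W 1 + W 2 = 3 * mm W := by unfold mm; ring
    field_simp
    linarith
  set m := mm W with hmdef
  set a := W 0 / m - 1 with ha
  set b := W 1 / m - 1 with hb
  have ha1 : -1 ≤ a := by
    have : 0 ≤ W 0 / m := div_nonneg (hW 0) hm.le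
    linarith
  have hb1 : -1 ≤ b := by
    have : 0 ≤ W 1 / m := div_nonneg (hW 1) hm.le
    linarith
  have hc1 : -1 ≤ -a - b := by
    have h : 0 ≤ m * (1 - a - b) := e2' ▸ hW 2
    have := nonneg_of_mul_nonneg_right h hm
    linarith
  have hkap : 0 ≤ (1 + a) * (1 + b) * (1 - a - b) :=
    mul_nonneg (mul_nonneg (by linarith) (by linarith)) (by linarith)
  have hL3 : (((1 + a) * (1 + b) * (1 - a - b)) ^ ((1 : ℝ) / 3)) ^ 3 =
      (1 + a) * (1 + b) * (1 - a - b) := by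
    rw [← Real.rpow_natCast, ← Real.rpow_mul hkap]
    norm_num
  refine ⟨a, b, ((1 + a) * (1 + b) * (1 - a - b)) ^ ((1 : ℝ) / 3), ha1, hb1, hc1,
    Real.rpow_nonneg hkap _, hL3, e0, e1, e2', ?_, ?_, ?_, ?_⟩
  · rw [P3_eq, e0, e1, e2', Pt_homog _ _ _ _ hm]
    congr 1
    unfold Pt pp
    rw [show (1 + a + (1 + b) + (1 - a - b)) / 3 = 1 by ring]
    ring
  · rw [hL3]
    unfold K3 e3
    rw [← hmdef]
    rw [div_eq_iff (by positivity)]
    rw [e0, e1, e2']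
    ring
  · rw [hL3, Z3_eq, e0, e1, e2', Zt_homog _ _ _ _ hm hkap]
    congr 1
    unfold Zt ss
    rw [show (1 + a + (1 + b) + (1 - a - b)) / 3 = 1 by ring]
    ring
  · have hP : P3 W = m * pp a b := by
      rw [P3_eq, e0, e1, e2', Pt_homog _ _ _ _ hm]
      congr 1
      unfold Pt pp
      rw [show (1 + a + (1 + b) + (1 - a - b)) / 3 = 1 by ring]
      ring
    unfold H3
    rw [hP, ← hmdef]
    have h2 : e2 W / m ^ 2 - e3 W / m ^ 3 = 2 - ss a b := by
      unfold e2 e3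
      rw [e0, e1, e2']
      unfold ss
      field_simp
      ring
    rw [h2]
    ring

theorem zero_of_mean (W : Fin 3 → ℝ) (hW : ∀ i, 0 ≤ W i) (hm : ¬ 0 < mm W) : W = fun _ => 0 := by
  have h0 := hW 0
  have h1 := hW 1
  have h2 := hW 2
  unfold mm at hm
  funext i
  fin_cases i <;> simp <;> linarith

theorem star_sum (F : (Fin 3 → ℝ) → ℝ) (f : ℝ → ℝ → ℝ → ℝ)
    (hF : ∀ W, F W = f (W 0) (W 1) (W 2)) (W W' : Fin 3 → ℝ) :
    ∑ g : Equiv.Perm (Fin 3), F (fun i => W i * W' (g i)) =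
      f (W 0 * W' 0) (W 1 * W' 1) (W 2 * W' 2) + f (W 0 * W' 0) (W 1 * W' 2) (W 2 * W' 1) +
      f (W 0 * W' 1) (W 1 * W' 0) (W 2 * W' 2) + f (W 0 * W' 1) (W 1 * W' 2) (W 2 * W' 0) +
      f (W 0 * W' 2) (W 1 * W' 0) (W 2 * W' 1) + f (W 0 * W' 2) (W 1 * W' 1) (W 2 * W' 0) := by
  have h := starAvg_eq (fun i j k => f (W 0 * W' i) (W 1 * W' j) (W 2 * W' k))
  rw [← h]
  exact Finset.sum_congr rfl fun g _ => hF _

theorem starP3 (W W' : Fin 3 → ℝ) (hW : ∀ i, 0 ≤ W i) (hW' : ∀ i, 0 ≤ W' i) :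
    (1 / 6) * ∑ g : Equiv.Perm (Fin 3), P3 (fun i => W i * W' (g i)) ≤
      P3 W * mm W' + mm W * P3 W' - H3 W' * Z3 W - H3 W * Z3 W' - (1 / 50) * P3 W * P3 W' := by
  have hz : ∀ V : Fin 3 → ℝ, P3 (fun i => (0 : ℝ) * V i) = 0 := by intro V; simp [P3, mm, e2]
  have hz0 : P3 (fun _ => (0 : ℝ)) = 0 := by simp [P3, mm, e2]
  have hzZ : Z3 (fun _ => (0 : ℝ)) = 0 := by simp [Z3, mm, e2, e3]
  have hzH : H3 (fun _ => (0 : ℝ)) = 0 := by simp [H3, P3, mm, e2]
  have hzm : mm (fun _ => (0 : ℝ)) = 0 := by simp [mm]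
  by_cases hm : 0 < mm W
  swap
  · rw [zero_of_mean W hW hm]
    simp [hz0, hzZ, hzH, hzm]
  by_cases hm' : 0 < mm W'
  swap
  · rw [zero_of_mean W' hW' hm']
    simp [hz0, hzZ, hzH, hzm]
  obtain ⟨a, b, L, ha, hb, hc, hL, hk, w0, w1, w2, hP, hK, hZ, hH⟩ := normal_form W hW hm
  obtain ⟨x, y, L', hx, hy, hz', hL', hk', w0', w1', w2', hP', hK', hZ', hH'⟩ :=
    normal_form W' hW' hm'
  have core := starP_core a b x y L L' ha hb hc hx hy hz' hL hL' hk hk'
  rw [star_sum P3 Pt P3_eq, hP, hP', hZ, hZ', hH, hH']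
  have hmm : 0 < mm W * mm W' := mul_pos hm hm'
  have hom : ∀ u v w u' v' w' : ℝ, Pt (mm W * u * (mm W' * u')) (mm W * v * (mm W' * v'))
      (mm W * w * (mm W' * w')) = mm W * mm W' * Pt (u * u') (v * v') (w * w') := by
    intro u v w u' v' w'
    rw [← Pt_homog _ _ _ _ hmm]
    congr 1 <;> ring
  rw [w0, w1, w2, w0', w1', w2', hom, hom, hom, hom, hom, hom]
  simp only [sum6] at core
  rw [show (1 : ℝ) + (-x - y) = 1 - x - y by ring, show (1 : ℝ) - x - (-x - y) = 1 + y by ring,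
    show (1 : ℝ) - y - x = 1 - x - y by ring, show (1 : ℝ) - y - (-x - y) = 1 + x by ring,
    show (1 : ℝ) - (-x - y) - x = 1 + y by ring, show (1 : ℝ) - (-x - y) - y = 1 + x by ring] at core
  have := mul_le_mul_of_nonneg_left core hmm.le
  linarith

theorem starZ3 (W W' : Fin 3 → ℝ) (hW : ∀ i, 0 ≤ W i) (hW' : ∀ i, 0 ≤ W' i) :
    K3 W' * Z3 W + K3 W * Z3 W' ≤
      (1 / 6) * ∑ g : Equiv.Perm (Fin 3), Z3 (fun i => W i * W' (g i)) := by
  have hzZ : Z3 (fun _ => (0 : ℝ)) = 0 := by simp [Z3, mm, e2, e3]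
  have hzK : K3 (fun _ => (0 : ℝ)) = 0 := by simp [K3, mm, e3]
  by_cases hm : 0 < mm W
  swap
  · rw [zero_of_mean W hW hm]
    simp [hzZ, hzK]
  by_cases hm' : 0 < mm W'
  swap
  · rw [zero_of_mean W' hW' hm']
    simp [hzZ, hzK]
  obtain ⟨a, b, L, ha, hb, hc, hL, hk, w0, w1, w2, hP, hK, hZ, hH⟩ := normal_form W hW hm
  obtain ⟨x, y, L', hx, hy, hz', hL', hk', w0', w1', w2', hP', hK', hZ', hH'⟩ :=
    normal_form W' hW' hm'
  have core := starZ_core a b x y L L' ha hb hc hx hy hz' hL hL' hk hk'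
  rw [star_sum Z3 Zt Z3_eq, hK, hK', hZ, hZ']
  have hmm : 0 < mm W * mm W' := mul_pos hm hm'
  have hom : ∀ u v w u' v' w' : ℝ, 0 ≤ (u * u') * (v * v') * (w * w') →
      Zt (mm W * u * (mm W' * u')) (mm W * v * (mm W' * v'))
      (mm W * w * (mm W' * w')) = mm W * mm W' * Zt (u * u') (v * v') (w * w') := by
    intro u v w u' v' w' h
    rw [← Zt_homog _ _ _ _ hmm h]
    congr 1 <;> ring
  have hkk : 0 ≤ ((1 + a) * (1 + b) * (1 - a - b)) * ((1 + x) * (1 + y) * (1 - x - y)) := by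
    rw [← hk, ← hk']; positivity
  rw [w0, w1, w2, w0', w1', w2', hom _ _ _ _ _ _ (by linarith), hom _ _ _ _ _ _ (by linarith),
    hom _ _ _ _ _ _ (by linarith), hom _ _ _ _ _ _ (by linarith), hom _ _ _ _ _ _ (by linarith),
    hom _ _ _ _ _ _ (by linarith)]
  simp only [sum6] at core
  rw [show (1 : ℝ) + (-x - y) = 1 - x - y by ring, show (1 : ℝ) - x - (-x - y) = 1 + y by ring,
    show (1 : ℝ) - y - x = 1 - x - y by ring, show (1 : ℝ) - y - (-x - y) = 1 + x by ring,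
    show (1 : ℝ) - (-x - y) - x = 1 + y by ring, show (1 : ℝ) - (-x - y) - y = 1 + x by ring] at core
  have := mul_le_mul_of_nonneg_left core hmm.le
  linarith

end Vale.Agent.Lib.P154.Ineq3
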