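import Vale.Agent.Lib.P154.Pot
import Vale.Agent.Lib.P154.Ineq3.Chan
import Vale.Agent.Lib.P154.Ineq3.StarFinal

namespace Vale.Agent.Lib.P154

open Ineq3

open scoped BigOperators

theorem mean_three (W : Fin 3 → ℝ) : mean 3 W = mm W := by
  unfold mean mm
  rw [Fin.sum_univ_three]
  norm_num

theorem starAvg_three (F : (Fin 3 → ℝ) → ℝ) (W W' : Fin 3 → ℝ) :
    starAvg 3 F W W' = (1 / 6) * ∑ g : Equiv.Perm (Fin 3), F (fun i => W i * W' (g i)) := by
  unfold starAvg
  norm_num [Nat.factorial]

/-- The explicit potential for three states and nonnegative `lam`. -/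
noncomputable def pot3 (lam : ℝ) (h0 : 0 ≤ lam) (h1 : lam ≤ 1) : Pot 3 lam where
  P := P3
  Z := Z3
  K := K3
  H := H3
  c := 1 / 50
  C := 18
  c_pos := by norm_num
  c_le := by norm_num
  P_nonneg := fun W hW => P3_nonneg hW
  P_le := fun W hW => by rw [mean_three]; exact P3_le hW
  K_nonneg := fun W hW => K3_nonneg hW
  H_nonneg := fun W hW => H3_nonneg hW
  starZ := fun W W' hW hW' => by rw [starAvg_three]; exact starZ3 W W' hW hW'
  starP := fun W W' hW hW' => by
    rw [starAvg_three, mean_three, mean_three]; exact starP3 W W' hW hW'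
  chanP := fun W hW => chanP3 h0 h1 hW
  chanZ := fun W hW => chanZ3 h0 h1 hW
  leafZ := leafZ3
  P_one := P3_one
  Z_one := Z3_one
  tv := fun W hW => by rw [mean_three]; exact tv3 hW

end Vale.Agent.Lib.P154
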