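import Vale.Agent.Lib.P154.Ineq3.G
import Vale.Agent.Lib.P154.Ineq3.Moments
import Vale.Agent.Lib.P154.Ineq3.Fun

namespace Vale.Agent.Lib.P154.Ineq3

open scoped BigOperators

/-! ### single-triple bounds -/

noncomputable def Pt (x y z : ℝ) : ℝ :=
  (x + y + z) / 3 - (x * y + y * z + z * x) / (3 * ((x + y + z) / 3))

noncomputable def Zt (x y z : ℝ) : ℝ :=
  15 / 4 * ((x + y + z) / 3) + 15 / 8 * (x * y * z / ((x + y + z) / 3) ^ 2) -
    3 * ((x * y + y * z + z * x) / ((x + y + z) / 3)) + 27 / 8 * (x * y * z) ^ ((1 : ℝ) / 3)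

theorem P3_eq (W : Fin 3 → ℝ) : P3 W = Pt (W 0) (W 1) (W 2) := rfl

theorem Z3_eq (W : Fin 3 → ℝ) : Z3 W = Zt (W 0) (W 1) (W 2) := rfl

theorem Pt_upper (x y z ρ : ℝ) (hx : 0 ≤ x) (hy : 0 ≤ y) (hz : 0 ≤ z)
    (hρ : (x + y + z) / 3 = 1 + ρ) :
    Pt x y z ≤ 1 + ρ - (x * y + y * z + z * x) / 3 * (1 - ρ + ρ ^ 2 - ρ ^ 3) := by
  have hS : 0 ≤ (x + y + z) / 3 := by positivity
  have hE : 0 ≤ (x * y + y * z + z * x) / 3 := by positivity
  rcases hS.eq_or_lt with h0 | h0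
  · have hx0 : x = 0 := by linarith
    have hy0 : y = 0 := by linarith
    have hz0 : z = 0 := by linarith
    have h1 : 1 + ρ = 0 := by linarith
    unfold Pt
    rw [hx0, hy0, hz0, h1]
    norm_num
  · unfold Pt
    rw [hρ] at h0 ⊢
    have h1 : (x * y + y * z + z * x) / (3 * (1 + ρ)) - (x * y + y * z + z * x) / 3 *
        (1 - ρ + ρ ^ 2 - ρ ^ 3) = (x * y + y * z + z * x) / 3 * ρ ^ 4 / (1 + ρ) := by
      field_simp
      ring
    have h2 : 0 ≤ (x * y + y * z + z * x) / 3 * ρ ^ 4 / (1 + ρ) := by positivity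
    linarith

theorem T_nonneg (x y z : ℝ) :
    0 ≤ ((x + y + z) / 3) ^ 2 - (x * y + y * z + z * x) / 3 := by
  nlinarith [sq_nonneg (x - y), sq_nonneg (y - z), sq_nonneg (z - x)]

theorem Pt_lower (x y z ρ : ℝ) (hx : 0 ≤ x) (hy : 0 ≤ y) (hz : 0 ≤ z)
    (hρ : (x + y + z) / 3 = 1 + ρ) :
    ((1 + ρ) ^ 2 - (x * y + y * z + z * x) / 3) *
      (1 - ρ + ρ ^ 2 - ρ ^ 3 + 5 / 9 * ρ ^ 4 - 1 / 9 * ρ ^ 5) ≤ Pt x y z := by
  have hS : 0 ≤ (x + y + z) / 3 := by positivity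
  have hT := T_nonneg x y z
  rcases hS.eq_or_lt with h0 | h0
  · have hx0 : x = 0 := by linarith
    have hy0 : y = 0 := by linarith
    have hz0 : z = 0 := by linarith
    have h1 : 1 + ρ = 0 := by linarith
    unfold Pt
    rw [hx0, hy0, hz0, h1]
    norm_num
  · unfold Pt
    rw [hρ] at h0 hT ⊢
    have h1 : 1 + ρ - (x * y + y * z + z * x) / (3 * (1 + ρ)) -
        ((1 + ρ) ^ 2 - (x * y + y * z + z * x) / 3) *
        (1 - ρ + ρ ^ 2 - ρ ^ 3 + 5 / 9 * ρ ^ 4 - 1 / 9 * ρ ^ 5) =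
        ((1 + ρ) ^ 2 - (x * y + y * z + z * x) / 3) * (ρ ^ 2 * (ρ * (2 - ρ) / 3) ^ 2) / (1 + ρ) := by
      field_simp
      ring
    have h2 : 0 ≤ ((1 + ρ) ^ 2 - (x * y + y * z + z * x) / 3) *
        (ρ ^ 2 * (ρ * (2 - ρ) / 3) ^ 2) / (1 + ρ) := by positivity
    linarith

theorem K_lower (x y z ρ : ℝ) (hx : 0 ≤ x) (hy : 0 ≤ y) (hz : 0 ≤ z)
    (hρ : (x + y + z) / 3 = 1 + ρ) :
    x * y * z * (1 - 2 * ρ) ≤ x * y * z / ((x + y + z) / 3) ^ 2 := by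
  have hS : 0 ≤ (x + y + z) / 3 := by positivity
  rcases hS.eq_or_lt with h0 | h0
  · have hx0 : x = 0 := by linarith
    rw [hx0]
    norm_num
  · rw [hρ] at h0 ⊢
    have hk : 0 ≤ x * y * z := by positivity
    have h1 : x * y * z / (1 + ρ) ^ 2 - x * y * z * (1 - 2 * ρ) =
        x * y * z * (ρ ^ 2 * (3 + 2 * ρ)) / (1 + ρ) ^ 2 := by
      field_simp
      ring
    have h3 : 0 ≤ 3 + 2 * ρ := by linarith
    have h2 : 0 ≤ x * y * z * (ρ ^ 2 * (3 + 2 * ρ)) / (1 + ρ) ^ 2 := by positivity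
    linarith

theorem Zt_eq (x y z : ℝ) (hx : 0 ≤ x) (hy : 0 ≤ y) (hz : 0 ≤ z) :
    Zt x y z = -21 / 4 * ((x + y + z) / 3) + 15 / 8 * (x * y * z / ((x + y + z) / 3) ^ 2) +
      9 * Pt x y z + 27 / 8 * (x * y * z) ^ ((1 : ℝ) / 3) := by
  have hS : 0 ≤ (x + y + z) / 3 := by positivity
  rcases hS.eq_or_lt with h0 | h0
  · have hx0 : x = 0 := by linarith
    have hy0 : y = 0 := by linarith
    have hz0 : z = 0 := by linarith
    unfold Zt Pt
    rw [hx0, hy0, hz0]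
    norm_num
  · unfold Zt Pt
    field_simp
    ring

/-! ### the six permutations -/

theorem starAvg_eq (f : Fin 3 → Fin 3 → Fin 3 → ℝ) :
    ∑ g : Equiv.Perm (Fin 3), f (g 0) (g 1) (g 2) =
      f 0 1 2 + f 0 2 1 + f 1 0 2 + f 1 2 0 + f 2 0 1 + f 2 1 0 := by
  have h : (Finset.univ : Finset (Equiv.Perm (Fin 3))) =
      {1, Equiv.swap 1 2, Equiv.swap 0 1, Equiv.swap 0 1 * Equiv.swap 1 2,
        Equiv.swap 1 2 * Equiv.swap 0 1, Equiv.swap 0 2} := by decide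
  rw [h]
  rw [Finset.sum_insert (by decide), Finset.sum_insert (by decide), Finset.sum_insert (by decide),
    Finset.sum_insert (by decide), Finset.sum_insert (by decide), Finset.sum_singleton]
  have e1 : (Equiv.swap (1 : Fin 3) 2) 0 = 0 := by decide
  have e2 : (Equiv.swap (1 : Fin 3) 2) 1 = 2 := by decide
  have e3 : (Equiv.swap (1 : Fin 3) 2) 2 = 1 := by decide
  have e4 : (Equiv.swap (0 : Fin 3) 1) 0 = 1 := by decide
  have e5 : (Equiv.swap (0 : Fin 3) 1) 1 = 0 := by decide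
  have e6 : (Equiv.swap (0 : Fin 3) 1) 2 = 2 := by decide
  have e7 : (Equiv.swap (0 : Fin 3) 2) 0 = 2 := by decide
  have e8 : (Equiv.swap (0 : Fin 3) 2) 1 = 1 := by decide
  have e9 : (Equiv.swap (0 : Fin 3) 2) 2 = 0 := by decide
  simp only [Equiv.Perm.coe_one, id_eq, Equiv.Perm.coe_mul, Function.comp_apply, e1, e2, e3, e4, e5,
    e6, e7, e8, e9]
  ring

end Vale.Agent.Lib.P154.Ineq3
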