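import Vale.Agent.Lib.P154.Ineq3.Star

namespace Vale.Agent.Lib.P154.Ineq3

theorem mean_eq (a b x y : ℝ) :
    ((1 + a) * (1 + x) + (1 + b) * (1 + y) + (1 - a - b) * (1 - x - y)) / 3 =
      1 + rho a b x y := by
  unfold rho; ring

theorem up1 (a b x y Q : ℝ) (ha : -1 ≤ a) (hb : -1 ≤ b) (hc : -1 ≤ -a - b)
    (hx : -1 ≤ x) (hy : -1 ≤ y) (hz : -1 ≤ -x - y) (hQ : pp x y = Q) :
    Pt ((1 + a) * (1 + x)) ((1 + b) * (1 + y)) ((1 - a - b) * (1 - x - y)) ≤
      1 + rho a b x y - (1 - pp a b - Q - pp a b * Q + rho a b x y + rho a b x y ^ 2 -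
        AA a b x y) * (1 - rho a b x y + rho a b x y ^ 2 - rho a b x y ^ 3) := by
  have h := Pt_upper ((1 + a) * (1 + x)) ((1 + b) * (1 + y)) ((1 - a - b) * (1 - x - y))
    (rho a b x y) (mul_nonneg (by linarith) (by linarith)) (mul_nonneg (by linarith) (by linarith))
    (mul_nonneg (by linarith) (by linarith)) (mean_eq a b x y)
  rw [E2_eq, hQ] at h
  exact h

theorem low1 (a b x y Q : ℝ) (ha : -1 ≤ a) (hb : -1 ≤ b) (hc : -1 ≤ -a - b)
    (hx : -1 ≤ x) (hy : -1 ≤ y) (hz : -1 ≤ -x - y) (hQ : pp x y = Q) :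
    (pp a b + Q + pp a b * Q + rho a b x y + AA a b x y) *
      (1 - rho a b x y + rho a b x y ^ 2 - rho a b x y ^ 3 + 5 / 9 * rho a b x y ^ 4 -
        1 / 9 * rho a b x y ^ 5) ≤
    Pt ((1 + a) * (1 + x)) ((1 + b) * (1 + y)) ((1 - a - b) * (1 - x - y)) := by
  have h := Pt_lower ((1 + a) * (1 + x)) ((1 + b) * (1 + y)) ((1 - a - b) * (1 - x - y))
    (rho a b x y) (mul_nonneg (by linarith) (by linarith)) (mul_nonneg (by linarith) (by linarith))
    (mul_nonneg (by linarith) (by linarith)) (mean_eq a b x y)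
  rw [E2_eq, hQ] at h
  refine le_trans (le_of_eq ?_) h
  ring

theorem lowZ (a b x y Q L L' : ℝ) (ha : -1 ≤ a) (hb : -1 ≤ b) (hc : -1 ≤ -a - b)
    (hx : -1 ≤ x) (hy : -1 ≤ y) (hz : -1 ≤ -x - y) (hQ : pp x y = Q) (hL : 0 ≤ L) (hL' : 0 ≤ L')
    (hk : L ^ 3 = (1 + a) * (1 + b) * (1 - a - b)) (hk' : L' ^ 3 = (1 + x) * (1 + y) * (1 - x - y)) :
    -21 / 4 * (1 + rho a b x y) + 15 / 8 * (L ^ 3 * L' ^ 3 * (1 - 2 * rho a b x y)) +
      9 * ((pp a b + Q + pp a b * Q + rho a b x y + AA a b x y) *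
      (1 - rho a b x y + rho a b x y ^ 2 - rho a b x y ^ 3 + 5 / 9 * rho a b x y ^ 4 -
        1 / 9 * rho a b x y ^ 5)) + 27 / 8 * (L * L') ≤
    Zt ((1 + a) * (1 + x)) ((1 + b) * (1 + y)) ((1 - a - b) * (1 - x - y)) := by
  have h1 : 0 ≤ (1 + a) * (1 + x) := mul_nonneg (by linarith) (by linarith)
  have h2 : 0 ≤ (1 + b) * (1 + y) := mul_nonneg (by linarith) (by linarith)
  have h3 : 0 ≤ (1 - a - b) * (1 - x - y) := mul_nonneg (by linarith) (by linarith)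
  have hprod : (1 + a) * (1 + x) * ((1 + b) * (1 + y)) * ((1 - a - b) * (1 - x - y)) =
      (L * L') ^ 3 := by
    rw [mul_pow, hk, hk']; ring
  have hroot : ((1 + a) * (1 + x) * ((1 + b) * (1 + y)) * ((1 - a - b) * (1 - x - y))) ^
      ((1 : ℝ) / 3) = L * L' := by
    rw [hprod, ← Real.rpow_natCast, ← Real.rpow_mul (mul_nonneg hL hL')]
    norm_num
  rw [Zt_eq _ _ _ h1 h2 h3, hroot]
  have hK := K_lower _ _ _ (rho a b x y) h1 h2 h3 (mean_eq a b x y)
  rw [hprod] at hK ⊢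
  rw [mean_eq] at hK ⊢
  have hP := low1 a b x y Q ha hb hc hx hy hz hQ
  have e : (L * L') ^ 3 = L ^ 3 * L' ^ 3 := by ring
  rw [e] at hK ⊢
  linarith

theorem kap_eq (a b : ℝ) : (1 + a) * (1 + b) * (1 - a - b) = 1 - 3 * pp a b + ss a b := by
  unfold pp ss; ring

theorem pp_perm (x y : ℝ) : pp x (-x - y) = pp x y ∧ pp y x = pp x y ∧ pp y (-x - y) = pp x y ∧
    pp (-x - y) x = pp x y ∧ pp (-x - y) y = pp x y := by
  unfold pp
  refine ⟨?_, ?_, ?_, ?_, ?_⟩ <;> ring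

theorem adm_pp (a b : ℝ) (ha : -1 ≤ a) (hb : -1 ≤ b) (hc : -1 ≤ -a - b) :
    Adm (pp a b) (ss a b) := adm_of a b ha hb hc

theorem starP_core (a b x y L L' : ℝ) (ha : -1 ≤ a) (hb : -1 ≤ b) (hc : -1 ≤ -a - b)
    (hx : -1 ≤ x) (hy : -1 ≤ y) (hz : -1 ≤ -x - y) (hL : 0 ≤ L) (hL' : 0 ≤ L')
    (hk : L ^ 3 = (1 + a) * (1 + b) * (1 - a - b))
    (hk' : L' ^ 3 = (1 + x) * (1 + y) * (1 - x - y)) :
    sum6 (fun x y => Pt ((1 + a) * (1 + x)) ((1 + b) * (1 + y)) ((1 - a - b) * (1 - x - y))) x y ≤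
      6 * (pp a b + pp x y - (2 - ss x y) / 10 * pp x y *
        (3 * ss a b - 9 / 8 * (2 - 3 * L + L ^ 3)) -
        (2 - ss a b) / 10 * pp a b * (3 * ss x y - 9 / 8 * (2 - 3 * L' + L' ^ 3)) -
        1 / 50 * (pp a b * pp x y)) := by
  have hG := GB (adm_pp a b ha hb hc) (adm_pp x y hx hy hz) hL hL' (by rw [hk, kap_eq])
    (by rw [hk', kap_eq])
  obtain ⟨q1, q2, q3, q4, q5⟩ := pp_perm x y
  have h1 := up1 a b x y _ ha hb hc hx hy hz rfl
  have h2 := up1 a b x (-x - y) _ ha hb hc hx hz (by linarith) q1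
  have h3 := up1 a b y x _ ha hb hc hy hx (by linarith) q2
  have h4 := up1 a b y (-x - y) _ ha hb hc hy hz (by linarith) q3
  have h5 := up1 a b (-x - y) x _ ha hb hc hz hx (by linarith) q4
  have h6 := up1 a b (-x - y) y _ ha hb hc hz hy (by linarith) q5
  have m1 := mom_R1 a b x y
  have m2 := mom_R2 a b x y
  have m3 := mom_R3 a b x y
  have m5 := mom_R5 a b x y
  have k0 := mom_n0 a b x y
  have k1 := mom_n1 a b x y
  have k2 := mom_n2 a b x y
  have k3 := mom_n3 a b x y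
  simp only [sum6] at m1 m2 m3 m5 k0 k1 k2 k3 ⊢
  generalize rho a b x y = r1 at *
  generalize rho a b x (-x - y) = r2 at *
  generalize rho a b y x = r3 at *
  generalize rho a b y (-x - y) = r4 at *
  generalize rho a b (-x - y) x = r5 at *
  generalize rho a b (-x - y) y = r6 at *
  generalize AA a b x y = A1 at *
  generalize AA a b x (-x - y) = A2 at *
  generalize AA a b y x = A3 at *
  generalize AA a b y (-x - y) = A4 at *
  generalize AA a b (-x - y) x = A5 at *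
  generalize AA a b (-x - y) y = A6 at *
  generalize pp a b = P at *
  generalize pp x y = Q at *
  generalize ss a b = s at *
  generalize ss x y = t at *
  linear_combination (exp := 1) h1 + h2 + h3 + h4 + h5 + h6 + 6 * hG +
    (1 - P - Q - P * Q) * m1 - (1 - P - Q - P * Q) * m2 + (1 - P - Q - P * Q) * m3 + m5 +
    k0 - k1 + k2 - k3

theorem starZ_core (a b x y L L' : ℝ) (ha : -1 ≤ a) (hb : -1 ≤ b) (hc : -1 ≤ -a - b)
    (hx : -1 ≤ x) (hy : -1 ≤ y) (hz : -1 ≤ -x - y) (hL : 0 ≤ L) (hL' : 0 ≤ L')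
    (hk : L ^ 3 = (1 + a) * (1 + b) * (1 - a - b))
    (hk' : L' ^ 3 = (1 + x) * (1 + y) * (1 - x - y)) :
    6 * (L' ^ 3 * (3 * ss a b - 9 / 8 * (2 - 3 * L + L ^ 3)) +
      L ^ 3 * (3 * ss x y - 9 / 8 * (2 - 3 * L' + L' ^ 3))) ≤
    sum6 (fun x y => Zt ((1 + a) * (1 + x)) ((1 + b) * (1 + y)) ((1 - a - b) * (1 - x - y))) x y := by
  have hG := GA (adm_pp a b ha hb hc) (adm_pp x y hx hy hz) hL hL' (by rw [hk, kap_eq])
    (by rw [hk', kap_eq])
  obtain ⟨q1, q2, q3, q4, q5⟩ := pp_perm x y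
  have h1 := lowZ a b x y _ L L' ha hb hc hx hy hz rfl hL hL' hk hk'
  have h2 := lowZ a b x (-x - y) _ L L' ha hb hc hx hz (by linarith) q1 hL hL' hk
    (by rw [hk']; ring)
  have h3 := lowZ a b y x _ L L' ha hb hc hy hx (by linarith) q2 hL hL' hk (by rw [hk']; ring)
  have h4 := lowZ a b y (-x - y) _ L L' ha hb hc hy hz (by linarith) q3 hL hL' hk
    (by rw [hk']; ring)
  have h5 := lowZ a b (-x - y) x _ L L' ha hb hc hz hx (by linarith) q4 hL hL' hk
    (by rw [hk']; ring)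
  have h6 := lowZ a b (-x - y) y _ L L' ha hb hc hz hy (by linarith) q5 hL hL' hk
    (by rw [hk']; ring)
  rw [kap_eq] at hk hk'
  have m1 := mom_R1 a b x y
  have m2 := mom_R2 a b x y
  have m3 := mom_R3 a b x y
  have m4 := mom_R4 a b x y
  have m5 := mom_R5 a b x y
  have m6 := mom_R6 a b x y
  have k0 := mom_n0 a b x y
  have k1 := mom_n1 a b x y
  have k2 := mom_n2 a b x y
  have k3 := mom_n3 a b x y
  have k4 := mom_n4 a b x y
  have k5 := mom_n5 a b x y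
  simp only [sum6] at m1 m2 m3 m4 m5 m6 k0 k1 k2 k3 k4 k5 ⊢
  rw [hk, hk'] at h1 h2 h3 h4 h5 h6 hG ⊢
  generalize rho a b x y = r1 at *
  generalize rho a b x (-x - y) = r2 at *
  generalize rho a b y x = r3 at *
  generalize rho a b y (-x - y) = r4 at *
  generalize rho a b (-x - y) x = r5 at *
  generalize rho a b (-x - y) y = r6 at *
  generalize AA a b x y = A1 at *
  generalize AA a b x (-x - y) = A2 at *
  generalize AA a b y x = A3 at *
  generalize AA a b y (-x - y) = A4 at *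
  generalize AA a b (-x - y) x = A5 at *
  generalize AA a b (-x - y) y = A6 at *
  generalize pp a b = P at *
  generalize pp x y = Q at *
  generalize ss a b = s at *
  generalize ss x y = t at *
  linear_combination (exp := 1) h1 + h2 + h3 + h4 + h5 + h6 + 54 * hG +
    (21 / 4) * m1 + 15 / 4 * (1 - 3 * P + s) * (1 - 3 * Q + t) * m1 -
    9 * ((P + Q + P * Q) * (- m1 + m2 - m3 + 5 / 9 * m4 - 1 / 9 * m5) +
      (m1 - m2 + m3 - m4 + 5 / 9 * m5 - 1 / 9 * m6) +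
      (k0 - k1 + k2 - k3 + 5 / 9 * k4 - 1 / 9 * k5))

end Vale.Agent.Lib.P154.Ineq3
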